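import Mathlib

/-!
# P220: closed submanifolds of Euclidean space, their cotangent bundles, exact Lagrangians and
Hamiltonian isotopies

`Q` is a closed connected submanifold of a Euclidean space `E`. A covector at `q` is written as the
tangent vector `p` that represents it through the inner product, so `T*Q` is the set of the pairs
`(q, p)` with `q ∈ Q` and `p` tangent to `Q` at `q`.
-/

open Set
open scoped ContDiff

namespace Vale.Agent.P220.R2.H57

/-- The tangent vectors of the set `S` at `x`: the velocities of the smooth curves in `S`. -/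
def Tan {F : Type} [NormedAddCommGroup F] [NormedSpace ℝ F] (S : Set F) (x : F) : Set F :=
  {v | ∃ c : ℝ → F, ContDiff ℝ ∞ c ∧ (∀ t, c t ∈ S) ∧ c 0 = x ∧ deriv c 0 = v}

/-- `S` is a smooth `n`-dimensional submanifold without boundary of the vector space `F`: near each
of its points there are smooth coordinates of `F` in which `S` is a linear subspace of
dimension `n`. -/
def IsSubmanifold {F : Type} [NormedAddCommGroup F] [NormedSpace ℝ F] (n : ℕ) (S : Set F) : Prop :=
  ∀ x ∈ S, ∃ (Φ : OpenPartialHomeomorph F F) (W : Submodule ℝ F), x ∈ Φ.source ∧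
    ContDiffOn ℝ ∞ Φ Φ.source ∧ ContDiffOn ℝ ∞ Φ.symm Φ.target ∧ Module.finrank ℝ W = n ∧
    ∀ y ∈ Φ.source, y ∈ S ↔ Φ y ∈ W

/-- `S` is a closed (compact, without boundary) connected smooth `n`-dimensional submanifold. -/
structure IsClosedManifold {F : Type} [NormedAddCommGroup F] [NormedSpace ℝ F] (n : ℕ)
    (S : Set F) : Prop where
  /-- a submanifold -/
  sub : IsSubmanifold n S
  /-- compact -/
  compact : IsCompact S
  /-- connected and nonempty -/
  conn : IsConnected S

variable {E : Type} [NormedAddCommGroup E] [InnerProductSpace ℝ E]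

/-- The cotangent bundle `T*Q = {(q, p)}`, a covector being represented by a tangent vector. -/
def Cot (Q : Set E) : Set (E × E) := {z | z.1 ∈ Q ∧ z.2 ∈ Tan Q z.1}

/-- The canonical one-form: `λ_(q,p)(v) = p(dπ(v))`. -/
def lam (z v : E × E) : ℝ := inner ℝ z.2 v.1

/-- The symplectic form `ω = dλ = dp ∧ dq`. -/
def om (u v : E × E) : ℝ := inner ℝ u.2 v.1 - inner ℝ v.2 u.1

/-- `H` is a smooth function of time and of the point of `T*Q`, with support in a compact subset
`|p| ≤ R` of `T*Q` that does not depend on time. -/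
structure IsHam (Q : Set E) (H : ℝ × (E × E) → ℝ) : Prop where
  /-- smooth -/
  smooth : ContDiff ℝ ∞ H
  /-- compact support -/
  supp : ∃ R : ℝ, ∀ s, ∀ z ∈ Cot Q, R ≤ ‖z.2‖ → H (s, z) = 0

/-- `φ s`, `0 ≤ s ≤ 1`, is the flow on `T*Q` of the Hamiltonian vector field `w` of `H`, given by
`ι_w ω = -dH`. -/
def IsHamFlow (Q : Set E) (H : ℝ × (E × E) → ℝ) (φ : ℝ → E × E → E × E) : Prop :=
  (∀ z ∈ Cot Q, φ 0 z = z) ∧ ∀ z ∈ Cot Q, ∀ s ∈ Icc (0 : ℝ) 1, φ s z ∈ Cot Q ∧
    ∃ w ∈ Tan (Cot Q) (φ s z), HasDerivWithinAt (fun r => φ r z) w (Icc 0 1) s ∧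
      ∀ u ∈ Tan (Cot Q) (φ s z), om w u = - fderiv ℝ (fun y => H (s, y)) (φ s z) u

/-- `L` is the image of the zero section under the time-one map of the flow of a compactly
supported smooth time-dependent Hamiltonian. -/
def HamIsotopicToZero (Q : Set E) (L : Set (E × E)) : Prop :=
  ∃ (H : ℝ × (E × E) → ℝ) (φ : ℝ → E × E → E × E), IsHam Q H ∧ IsHamFlow Q H φ ∧
    φ 1 '' {z | z.1 ∈ Q ∧ z.2 = 0} = L

/-- `L` is a closed connected exact Lagrangian submanifold of `T*Q`, where `dim Q = n`. -/
structure IsExactLagrangian (n : ℕ) (Q : Set E) (L : Set (E × E)) : Prop where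
  /-- a closed connected manifold of dimension `n` -/
  closed : IsClosedManifold n L
  /-- in the cotangent bundle -/
  sub : L ⊆ Cot Q
  /-- the canonical one-form is exact on `L` -/
  exact : ∃ f : E × E → ℝ, ContDiff ℝ ∞ f ∧ ∀ z ∈ L, ∀ v ∈ Tan L z, fderiv ℝ f z v = lam z v

/-- `X` is a vector field on `Q` whose orbits do not stay in the closed set `N`; over the
complement of `N` the Lagrangian `L` has at most one point in each fibre and is transverse to the
fibres; over `N` it stays embedded when all but the one momentum `p(X)` is forgotten. -/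
structure IsOneMomentum (Q : Set E) (L : Set (E × E)) (N : Set E) (X : E → E) : Prop where
  /-- `N` is closed -/
  closed : IsClosed N
  /-- `X` is smooth -/
  smooth : ContDiff ℝ ∞ X
  /-- `X` is tangent to `Q` -/
  tangent : ∀ q ∈ Q, X q ∈ Tan Q q
  /-- no complete orbit of `X` stays in `N` -/
  leaves : ∀ c : ℝ → E, (∀ t, c t ∈ Q ∧ HasDerivAt c (X (c t)) t) → ∃ t, c t ∉ N
  /-- `L` meets the complement of `N` -/
  meets : ∃ z ∈ L, z.1 ∉ N
  /-- there is at most one point of `L` over a point of the complement of `N` -/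
  sheet : ∀ z ∈ L, ∀ z' ∈ L, z.1 ∉ N → z.1 = z'.1 → z = z'
  /-- there `L` is transverse to the fibres -/
  transverse : ∀ z ∈ L, z.1 ∉ N → ∀ v ∈ Tan L z, v.1 = 0 → v = 0
  /-- `(q, p) ↦ (q, p(X))` is injective on the part of `L` over `N` -/
  inj : ∀ z ∈ L, ∀ z' ∈ L, z.1 ∈ N → z.1 = z'.1 → inner ℝ z.2 (X z.1) = inner ℝ z'.2 (X z.1) →
    z = z'
  /-- and an immersion -/
  imm : ∀ z ∈ L, z.1 ∈ N → ∀ v ∈ Tan L z, v.1 = 0 → inner ℝ v.2 (X z.1) = 0 → v = 0

end Vale.Agent.P220.R2.H57
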