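import Mathlib

/-!
Lifting the argument of a family of paths in the punctured plane that end in the right half plane.
-/

open Set Filter Topology

namespace Vale.Agent.P220.R2.H57

theorem arg_div_of_re_pos {x y : ℂ} (hx : 0 < x.re) (hy : 0 < y.re) :
    (x / y).arg = x.arg - y.arg := by
  have hx0 : x ≠ 0 := by rintro rfl; simp at hx
  have hy0 : y ≠ 0 := by rintro rfl; simp at hy
  have hxa := abs_lt.1 (Complex.abs_arg_lt_pi_div_two_iff.2 (Or.inl hx))
  have hya := abs_lt.1 (Complex.abs_arg_lt_pi_div_two_iff.2 (Or.inl hy))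
  have h1 : x / y = ((‖x‖ / ‖y‖ : ℝ) : ℂ) *
      (Complex.cos ((x.arg - y.arg : ℝ) : ℂ) + Complex.sin ((x.arg - y.arg : ℝ) : ℂ) * Complex.I) := by
    rw [← Complex.exp_mul_I]
    conv_lhs => rw [← Complex.norm_mul_exp_arg_mul_I x, ← Complex.norm_mul_exp_arg_mul_I y]
    push_cast
    rw [sub_mul, Complex.exp_sub]
    field_simp
  rw [h1]
  exact Complex.arg_mul_cos_add_sin_mul_I (by positivity) ⟨by linarith, by linarith⟩

theorem prod_telescope (f : ℕ → ℂ) (M : ℕ) (hf : ∀ j ≤ M, f j ≠ 0) :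
    ∏ j ∈ Finset.range M, f j / f (j + 1) = f 0 / f M := by
  induction M with
  | zero => simp [hf 0 (le_refl 0)]
  | succ n ih =>
    rw [Finset.prod_range_succ, ih fun j hj => hf j (hj.trans (Nat.le_succ n))]
    have h1 := hf n (Nat.le_succ n)
    have h2 := hf (n + 1) (le_refl _)
    field_simp

theorem angle_lift {F : Type} [PseudoMetricSpace F] {L : Set F} (hL : IsCompact L) {P : ℝ × F → ℂ}
    (hP : Continuous P) {S : ℝ} (hS : 0 ≤ S) (hne : ∀ σ ∈ Icc (0 : ℝ) S, ∀ z ∈ L, P (σ, z) ≠ 0)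
    (hre : ∀ z ∈ L, 0 < (P (S, z)).re) :
    ∃ θ : F → ℝ, ContinuousOn θ L ∧
      (∀ z ∈ L, P (0, z) = ‖P (0, z)‖ * Complex.exp (θ z * Complex.I)) ∧
      ∀ z ∈ L, (∀ σ ∈ Icc (0 : ℝ) S, 0 < (P (σ, z)).re) → |θ z| < Real.pi / 2 := by
  have hK : IsCompact (Icc (0 : ℝ) S ×ˢ L) := isCompact_Icc.prod hL
  obtain ⟨m, hm, hmP⟩ := hK.exists_forall_le' (f := fun x => ‖P x‖) hP.norm.continuousOn (a := 0)
    (fun x hx => norm_pos_iff.2 (hne x.1 hx.1 x.2 hx.2))
  have huc := hK.uniformContinuousOn_of_continuous hP.continuousOn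
  obtain ⟨δ, hδ, hδP⟩ := Metric.uniformContinuousOn_iff.1 huc m hm
  obtain ⟨M, hM⟩ := exists_nat_gt (S / δ)
  have hMpos : (0 : ℝ) < M := lt_of_le_of_lt (by positivity) hM
  set g : ℕ → ℝ := fun j => S * j / M with hg
  have hgmem : ∀ j ≤ M, g j ∈ Icc (0 : ℝ) S := by
    intro j hj
    have hj' : (j : ℝ) ≤ M := by exact_mod_cast hj
    constructor
    · positivity
    · simp only [hg]
      rw [div_le_iff₀ hMpos]
      exact mul_le_mul_of_nonneg_left hj' hS
  have hg0 : g 0 = 0 := by simp [hg]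
  have hgM : g M = S := by simp only [hg]; field_simp
  have hclose : ∀ j < M, ∀ z ∈ L, ‖P (g j, z) - P (g (j + 1), z)‖ < m := by
    intro j hj z hz
    have h1 := hδP (g j, z) ⟨hgmem j hj.le, hz⟩ (g (j + 1), z) ⟨hgmem (j + 1) hj, hz⟩ (by
      rw [Prod.dist_eq]
      simp only [dist_self]
      refine max_lt ?_ hδ
      rw [Real.dist_eq]
      have : g j - g (j + 1) = -(S / M) := by simp only [hg]; push_cast; ring
      rw [this, abs_neg, abs_of_nonneg (by positivity)]
      rw [div_lt_iff₀ hMpos, mul_comm]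
      rwa [div_lt_iff₀ hδ] at hM)
    rwa [dist_eq_norm] at h1
  set R : ℕ → F → ℂ := fun j z => P (g j, z) / P (g (j + 1), z) with hR
  have hRre : ∀ j < M, ∀ z ∈ L, 0 < (R j z).re := by
    intro j hj z hz
    have h0 := hne _ (hgmem (j + 1) hj) z hz
    have h1 : ‖R j z - 1‖ < 1 := by
      have h2 : R j z - 1 = (P (g j, z) - P (g (j + 1), z)) / P (g (j + 1), z) := by
        simp only [hR]
        field_simp
      rw [h2, norm_div, div_lt_one (norm_pos_iff.2 h0)]
      exact (hclose j hj z hz).trans_le (hmP (g (j + 1), z) ⟨hgmem (j + 1) hj, hz⟩)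
    have h2 := (Complex.abs_re_le_norm (R j z - 1)).trans_lt h1
    rw [Complex.sub_re, Complex.one_re] at h2
    linarith [(abs_lt.1 h2).1]
  refine ⟨fun z => (P (S, z)).arg + ∑ j ∈ Finset.range M, (R j z).arg, ?_, ?_, ?_⟩
  · have hPc : ∀ σ : ℝ, Continuous fun z => P (σ, z) := fun σ =>
      hP.comp (continuous_const.prodMk continuous_id)
    refine ContinuousOn.add ?_ (continuousOn_finsetSum _ fun j hj => ?_)
    · intro z hz
      have h1 : ContinuousAt Complex.arg ((fun z => P (S, z)) z) :=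
        Complex.continuousAt_arg (Or.inl (hre z hz))
      exact ContinuousAt.comp_continuousWithinAt (g := Complex.arg) (f := fun z => P (S, z)) h1
        (hPc S).continuousWithinAt
    · have hj' := Finset.mem_range.1 hj
      intro z hz
      have h1 : ContinuousAt Complex.arg (R j z) :=
        Complex.continuousAt_arg (Or.inl (hRre j hj' z hz))
      have h2 : ContinuousWithinAt (R j) L z :=
        ((hPc _).continuousWithinAt).div (hPc _).continuousWithinAt
          (hne _ (hgmem (j + 1) hj') z hz)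
      exact h1.comp_continuousWithinAt h2
  · intro z hz
    have h1 : Complex.exp (((P (S, z)).arg + ∑ j ∈ Finset.range M, (R j z).arg : ℝ) * Complex.I) =
        (P (S, z) / ‖P (S, z)‖) * ∏ j ∈ Finset.range M, (R j z / ‖R j z‖) := by
      push_cast
      rw [add_mul, Complex.exp_add, Finset.sum_mul, Complex.exp_sum]
      have h2 : ∀ x : ℂ, x ≠ 0 → Complex.exp (x.arg * Complex.I) = x / ‖x‖ := by
        intro x hx
        have h3 : (‖x‖ : ℂ) ≠ 0 := by exact_mod_cast (norm_pos_iff.2 hx).ne'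
        rw [eq_div_iff h3, mul_comm]
        exact Complex.norm_mul_exp_arg_mul_I x
      have hSm : S ∈ Icc (0 : ℝ) S := ⟨hS, le_refl S⟩
      rw [h2 _ (hne S hSm z hz)]
      congr 1
      refine Finset.prod_congr rfl fun j hj => h2 _ ?_
      have := hRre j (Finset.mem_range.1 hj) z hz
      intro h0
      rw [h0] at this
      simp at this
    rw [h1, Finset.prod_div_distrib]
    have h3 : ∏ j ∈ Finset.range M, R j z = P (0, z) / P (S, z) := by
      have := prod_telescope (fun j => P (g j, z)) M (fun j hj => hne _ (hgmem j hj) z hz)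
      rw [hg0, hgM] at this
      exact this
    have h4 : ∏ j ∈ Finset.range M, (‖R j z‖ : ℂ) = ‖P (0, z)‖ / ‖P (S, z)‖ := by
      have := prod_telescope (fun j => (‖P (g j, z)‖ : ℂ)) M (fun j hj => by
        exact_mod_cast (norm_pos_iff.2 (hne _ (hgmem j hj) z hz)).ne')
      rw [hg0, hgM] at this
      rw [← this]
      refine Finset.prod_congr rfl fun j _ => ?_
      simp only [hR]
      rw [norm_div]
      push_cast
      rfl
    rw [h3, h4]
    have h5 : P (S, z) ≠ 0 := hne S ⟨hS, le_refl S⟩ z hz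
    have h6 : P (0, z) ≠ 0 := hne 0 ⟨le_refl 0, hS⟩ z hz
    have h7 : (‖P (S, z)‖ : ℂ) ≠ 0 := by exact_mod_cast (norm_pos_iff.2 h5).ne'
    have h8 : (‖P (0, z)‖ : ℂ) ≠ 0 := by exact_mod_cast (norm_pos_iff.2 h6).ne'
    field_simp
  · intro z hz hpos
    have h1 : ∀ j ∈ Finset.range M, (R j z).arg = (P (g j, z)).arg - (P (g (j + 1), z)).arg := by
      intro j hj
      have hj' := Finset.mem_range.1 hj
      exact arg_div_of_re_pos (hpos _ (hgmem j hj'.le)) (hpos _ (hgmem (j + 1) hj'))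
    have h2 := Finset.sum_range_sub' (fun j => (P (g j, z)).arg) M
    rw [hg0, hgM] at h2
    simp only
    rw [Finset.sum_congr rfl h1, h2, add_sub_cancel]
    exact Complex.abs_arg_lt_pi_div_two_iff.2 (Or.inl (hpos 0 ⟨le_refl 0, hS⟩))

end Vale.Agent.P220.R2.H57
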