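import Mathlib
import Vale.Agent.P265.H185.Flow
import Vale.Agent.P220.R2.H57.Defs

/-!
Gluing of smooth functions, linear systems with parameters, local left inverses.
-/

open Set Filter Topology
open scoped ContDiff Manifold

namespace Vale.Agent.P220.R2.H57

section Glue

variable {P G : Type} [NormedAddCommGroup P] [NormedSpace ℝ P] [FiniteDimensional ℝ P]
  [NormedAddCommGroup G] [NormedSpace ℝ G]

theorem glue {S : Set P} (hS : IsClosed S) (g : P → G)
    (h : ∀ x ∈ S, ∃ O ∈ 𝓝 x, ∃ f : P → G, ContDiffOn ℝ ∞ f O ∧ ∀ y ∈ O, y ∈ S → f y = g y) :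
    ∃ f : P → G, ContDiff ℝ ∞ f ∧ ∀ x ∈ S, f x = g x := by
  classical
  have key := exists_contMDiffMap_forall_mem_convex_of_local (M := P) (n := (⊤ : ℕ∞))
    (F := G) (I := 𝓘(ℝ, P)) (t := fun y => if y ∈ S then ({g y} : Set G) else univ) ?_ ?_
  · obtain ⟨f, hf⟩ := key
    refine ⟨f, f.contMDiff.contDiff, fun x hx => ?_⟩
    have := hf x
    simpa [hx] using this
  · intro x
    by_cases hx : x ∈ S
    · simp only [hx, if_true]
      exact convex_singleton _
    · simp only [hx, if_false]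
      exact convex_univ
  · intro x
    by_cases hx : x ∈ S
    · obtain ⟨O, hO, f, hf, hfg⟩ := h x hx
      refine ⟨O, hO, f, hf.contMDiffOn, fun y hy => ?_⟩
      by_cases hyS : y ∈ S
      · simp [hyS, hfg y hy hyS]
      · simp [hyS]
    · refine ⟨Sᶜ, hS.isOpen_compl.mem_nhds hx, fun _ => 0, contMDiffOn_const, fun y hy => ?_⟩
      have : y ∉ S := hy
      simp [this]

end Glue

set_option linter.unusedSectionVars false

section Linear

variable {P F G : Type} [NormedAddCommGroup P] [NormedSpace ℝ P] [FiniteDimensional ℝ P]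
  [NormedAddCommGroup F] [NormedSpace ℝ F] [FiniteDimensional ℝ F]
  [NormedAddCommGroup G] [NormedSpace ℝ G]

theorem exists_left_inverse_clm (A : F →L[ℝ] G) [FiniteDimensional ℝ G]
    (hA : ∀ x, A x = 0 → x = 0) : ∃ B : G →L[ℝ] F, ∀ x, B (A x) = x := by
  obtain ⟨B, hB⟩ := (A : F →ₗ[ℝ] G).exists_leftInverse_of_injective
    (LinearMap.ker_eq_bot'.2 hA)
  refine ⟨LinearMap.toContinuousLinearMap B, fun x => ?_⟩
  have := congrArg (fun C => C x) hB
  simpa using this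

/-- Linear systems with parameters: the unique solution depends smoothly on the parameter. -/
theorem linSolve_local [FiniteDimensional ℝ G] {O : Set P} (hO : IsOpen O) {A : P → F →L[ℝ] G}
    {y : P → G} (hA : ContDiffOn ℝ ∞ A O) (hy : ContDiffOn ℝ ∞ y O) {x₀ : P} (hx₀ : x₀ ∈ O)
    (hinj : ∀ x, A x₀ x = 0 → x = 0) :
    ∃ O' ∈ 𝓝 x₀, O' ⊆ O ∧ (∀ p ∈ O', ∀ x, A p x = 0 → x = 0) ∧
    ∃ f : P → F, ContDiffOn ℝ ∞ f O' ∧
      ∀ p ∈ O', ∀ x, A p x = y p → f p = x := by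
  have : CompleteSpace F := FiniteDimensional.complete ℝ F
  obtain ⟨B, hB⟩ := exists_left_inverse_clm (A x₀) hinj
  have hBA : ContDiffOn ℝ ∞ (fun p => B.comp (A p)) O := contDiffOn_const.clm_comp hA
  have h1 : B.comp (A x₀) = ((ContinuousLinearEquiv.refl ℝ F : F ≃L[ℝ] F) : F →L[ℝ] F) := by
    ext x
    simp [hB]
  have hopen : IsOpen (range ((↑) : (F ≃L[ℝ] F) → F →L[ℝ] F)) := ContinuousLinearEquiv.isOpen
  have hnb : {p | p ∈ O ∧ B.comp (A p) ∈ range ((↑) : (F ≃L[ℝ] F) → F →L[ℝ] F)} ∈ 𝓝 x₀ := by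
    have h2 : ContinuousAt (fun p => B.comp (A p)) x₀ :=
      (hBA.continuousOn).continuousAt (hO.mem_nhds hx₀)
    have h3 := h2.preimage_mem_nhds (hopen.mem_nhds ⟨_, h1.symm⟩)
    exact inter_mem (hO.mem_nhds hx₀) h3
  refine ⟨_, hnb, fun p hp => hp.1, ?_, fun p => (ContinuousLinearMap.inverse (B.comp (A p))) (B (y p)),
    ?_, ?_⟩
  · rintro p ⟨hp, e, he⟩ x hx
    have : B.comp (A p) x = 0 := by simp [hx]
    rw [← he] at this
    simpa using this
  · rintro p ⟨hp, e, he⟩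
    have h2 : ContDiffWithinAt ℝ ∞ (fun p => (ContinuousLinearMap.inverse (B.comp (A p)))) O p := by
      have h3 : ContDiffAt ℝ ∞ (ContinuousLinearMap.inverse : (F →L[ℝ] F) → (F →L[ℝ] F))
          (B.comp (A p)) := by
        rw [← he]
        exact contDiffAt_map_inverse e
      exact h3.comp_contDiffWithinAt p (hBA p hp)
    exact (h2.clm_apply (B.contDiff.comp_contDiffWithinAt (hy p hp))).mono fun p hp => hp.1
  · rintro p ⟨hp, e, he⟩ x hx
    change (ContinuousLinearMap.inverse (B.comp (A p))) (B (y p)) = x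
    rw [← hx]
    change (ContinuousLinearMap.inverse (B.comp (A p))) ((B.comp (A p)) x) = x
    rw [← he]
    simp

theorem linSolve [FiniteDimensional ℝ G] {S : Set P} (hS : IsClosed S) {A : P → F →L[ℝ] G}
    {y : P → G} (hA : ContDiff ℝ ∞ A) (hy : ContDiff ℝ ∞ y)
    (hinj : ∀ s ∈ S, ∀ x, A s x = 0 → x = 0) (hsol : ∀ s ∈ S, ∃ x, A s x = y s) :
    ∃ f : P → F, ContDiff ℝ ∞ f ∧ ∀ s ∈ S, A s (f s) = y s := by
  classical
  choose! g hg using hsol
  obtain ⟨f, hf, hfg⟩ := glue hS g (fun x hx => by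
    obtain ⟨O', hO', -, -, f, hf, h2⟩ := linSolve_local isOpen_univ hA.contDiffOn hy.contDiffOn
      (mem_univ x) (hinj x hx)
    exact ⟨O', hO', f, hf, fun p hp hpS => h2 p hp _ (hg p hpS)⟩)
  exact ⟨f, hf, fun s hs => by rw [hfg s hs, hg s hs]⟩

end Linear

section Inverse

variable {X Y : Type} [NormedAddCommGroup X] [NormedSpace ℝ X] [FiniteDimensional ℝ X]
  [NormedAddCommGroup Y] [NormedSpace ℝ Y] [FiniteDimensional ℝ Y]

theorem exists_leftInv {f : X → Y} (hf : ContDiff ℝ ∞ f) {x₀ : X}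
    (hinj : ∀ v, fderiv ℝ f x₀ v = 0 → v = 0) :
    ∃ O ∈ 𝓝 (f x₀), ∃ m : Y → X, ContDiffOn ℝ ∞ m O ∧ ∀ᶠ x in 𝓝 x₀, m (f x) = x := by
  have : CompleteSpace X := FiniteDimensional.complete ℝ X
  obtain ⟨B, hB⟩ := exists_left_inverse_clm (fderiv ℝ f x₀) hinj
  set g : X → X := fun x => B (f x) with hg
  have hgs : ContDiff ℝ ∞ g := B.contDiff.comp hf
  have hfd : ∀ x, HasFDerivAt g (B.comp (fderiv ℝ f x)) x := fun x =>
    B.hasFDerivAt.comp x (hf.differentiable (by simp) x).hasFDerivAt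
  have h1 : B.comp (fderiv ℝ f x₀) = ((ContinuousLinearEquiv.refl ℝ X : X ≃L[ℝ] X) : X →L[ℝ] X) := by
    ext x
    simp [hB]
  have hstrict : HasStrictFDerivAt g ((ContinuousLinearEquiv.refl ℝ X : X ≃L[ℝ] X) : X →L[ℝ] X) x₀ := by
    rw [← h1]
    exact hgs.contDiffAt.hasStrictFDerivAt' (hfd x₀) (by simp)
  set R := hstrict.toOpenPartialHomeomorph g with hR
  have hRg : ∀ x, R x = g x := fun x => rfl
  have hx₀ : x₀ ∈ R.source := hstrict.mem_toOpenPartialHomeomorph_source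
  have hgx₀ : g x₀ ∈ R.target := hstrict.image_mem_toOpenPartialHomeomorph_target
  have hopen : IsOpen (range ((↑) : (X ≃L[ℝ] X) → X →L[ℝ] X)) := ContinuousLinearEquiv.isOpen
  have hgood : {x | fderiv ℝ g x ∈ range ((↑) : (X ≃L[ℝ] X) → X →L[ℝ] X)} ∈ 𝓝 x₀ := by
    have h2 : Continuous (fderiv ℝ g) := hgs.continuous_fderiv (by simp)
    refine h2.continuousAt.preimage_mem_nhds
      (hopen.mem_nhds ⟨ContinuousLinearEquiv.refl ℝ X, ?_⟩)
    rw [(hfd x₀).fderiv, h1]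
  have hsymm : R.symm (g x₀) = x₀ := R.left_inv hx₀
  have hcont : ContinuousAt R.symm (g x₀) := R.symm.continuousAt (by simpa using hgx₀)
  have hO1 : {y | y ∈ R.target ∧ fderiv ℝ g (R.symm y) ∈
      range ((↑) : (X ≃L[ℝ] X) → X →L[ℝ] X)} ∈ 𝓝 (g x₀) := by
    refine inter_mem (R.open_target.mem_nhds hgx₀) ?_
    have := hcont.preimage_mem_nhds (by rw [hsymm]; exact hgood)
    exact this
  refine ⟨B ⁻¹' {y | y ∈ R.target ∧ fderiv ℝ g (R.symm y) ∈
      range ((↑) : (X ≃L[ℝ] X) → X →L[ℝ] X)}, B.continuous.continuousAt.preimage_mem_nhds hO1,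
      fun y => R.symm (B y), ?_, ?_⟩
  · rintro y ⟨hy, e, he⟩
    have h3 : HasFDerivAt R (e : X →L[ℝ] X) (R.symm (B y)) := by
      rw [he]
      exact (hgs.differentiable (by simp) _).hasFDerivAt
    have h4 : ContDiffAt ℝ ∞ R.symm (B y) := R.contDiffAt_symm hy h3 hgs.contDiffAt
    exact (h4.comp y B.contDiff.contDiffAt).contDiffWithinAt
  · filter_upwards [R.open_source.mem_nhds hx₀] with x hx
    exact R.left_inv hx

theorem locInj {f : X → Y} (hf : ContDiff ℝ ∞ f) {x₀ : X}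
    (hinj : ∀ v, fderiv ℝ f x₀ v = 0 → v = 0) : ∃ O ∈ 𝓝 x₀, InjOn f O := by
  obtain ⟨-, -, m, -, hm⟩ := exists_leftInv hf hinj
  exact ⟨_, hm, fun x hx y hy hxy => by rw [← hx, ← hy, hxy]⟩

end Inverse

end Vale.Agent.P220.R2.H57
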