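import Vale.Agent.P220.R2.H57.Dyn

/-!
There are no closed leafwise curves; orientation and drift.
-/

open Set Filter Topology
open scoped ContDiff Manifold

set_option linter.unusedSectionVars false

namespace Vale.Agent.P220.R2.H57

variable {E : Type} [NormedAddCommGroup E] [InnerProductSpace ℝ E] [FiniteDimensional ℝ E]

namespace Setup

variable (D : Setup E)

theorem φ_mem {q : E} (hq : q ∈ D.Q) (t : ℝ) : D.φ t q ∈ D.Q :=
  D.hQ.flow_mem D.hX D.hφ D.tX hq t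

theorem Q_nonempty : D.Q.Nonempty := by
  obtain ⟨z, hz⟩ := D.conn.nonempty
  exact ⟨z.1, D.sub z hz⟩

theorem exists_wall_time : ∃ T₀ > 0, ∀ q ∈ D.Q, ∃ t ∈ Icc (0 : ℝ) T₀, D.φ t q ∉ D.N := by
  by_contra hcon
  push Not at hcon
  have h1 : ∀ n : ℕ, ∃ q ∈ D.Q, ∀ t ∈ Icc (0 : ℝ) (2 * n + 1), D.φ t q ∈ D.N :=
    fun n => hcon (2 * n + 1) (by positivity)
  choose q hq hqN using h1
  obtain ⟨a, ha, ψ, hψ, hlim⟩ := D.cQ.tendsto_subseq (x := fun n => D.φ n (q n))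
    (fun n => D.φ_mem (hq n) n)
  obtain ⟨t, ht⟩ := D.leaves a ha
  have h2 : Tendsto (fun n => D.φ t (D.φ (ψ n) (q (ψ n)))) atTop (𝓝 (D.φ t a)) :=
    ((D.hφ.smooth_map t).continuous.tendsto a).comp hlim
  refine ht (D.hN.mem_of_tendsto h2 ?_)
  have h3 : ∀ᶠ n in atTop, |t| ≤ (ψ n : ℝ) := by
    have h4 : Tendsto (fun n => ((ψ n : ℕ) : ℝ)) atTop atTop :=
      tendsto_natCast_atTop_atTop.comp hψ.tendsto_atTop
    exact h4.eventually_ge_atTop _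
  filter_upwards [h3] with n hn
  rw [← D.hφ.add]
  have h5 := abs_le.1 hn
  exact hqN (ψ n) _ ⟨by linarith, by linarith⟩

theorem exists_wall_point : ∃ k ∈ D.Hat, k.1.1 ∉ D.N := by
  obtain ⟨z, hz, hzN⟩ := D.meets
  obtain ⟨u, v, huv, hu⟩ := D.Lf_exists hz
  exact ⟨(z, u), ⟨hz, ⟨v, huv⟩, hu⟩, hzN⟩

namespace HatFlow

variable {D} (H : D.HatFlow)

theorem cont_Φ (t : ℝ) : Continuous (H.Φ t) := H.cont.comp (continuous_const.prodMk continuous_id)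

theorem cont_Tσ (t : ℝ) : Continuous (H.T t) := H.cont_T.comp (continuous_const.prodMk continuous_id)

theorem cont_Tk (k : (E × E) × (ℝ × ℝ)) : Continuous fun σ => H.T σ k :=
  H.cont_T.comp (continuous_id.prodMk continuous_const)

/-- `k` lies on a closed leafwise curve -/
def Loop (k : (E × E) × (ℝ × ℝ)) : Prop := k ∈ D.Hat ∧ ∃ P > 0, H.Φ P k = k ∧ H.T P k = 0

variable {H}

theorem Loop.move {k : (E × E) × (ℝ × ℝ)} (h : H.Loop k) (s : ℝ) : H.Loop (H.Φ s k) := by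
  obtain ⟨hk, P, hP, h1, h2⟩ := h
  refine ⟨H.mem k hk s, P, hP, ?_, ?_⟩
  · rw [← H.add, add_comm, H.add, h1]
  · have h3 := H.T_add P s k
    have h4 := H.T_add s P k
    rw [h1, h2, zero_add] at h4
    rw [add_comm, h4] at h3
    linarith

theorem Loop.mem_N {k : (E × E) × (ℝ × ℝ)} (h : H.Loop k) : k.1.1 ∈ D.N := by
  obtain ⟨hk, P, hP, h1, h2⟩ := h
  by_contra hN
  have := H.wall hk hN hP
  rw [h2, mul_zero] at this
  exact lt_irrefl _ this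

theorem loop_of_eq {k : (E × E) × (ℝ × ℝ)} (hk : k ∈ D.Hat) {a b : ℝ} (hab : a < b)
    (h : H.Φ a k = H.Φ b k) (hT : H.T a k = H.T b k) : H.Loop k := by
  have h1 : H.Loop (H.Φ a k) := by
    refine ⟨H.mem k hk a, b - a, sub_pos.2 hab, ?_, ?_⟩
    · rw [← H.add, sub_add_cancel, h]
    · have := H.T_add (b - a) a k
      rw [sub_add_cancel] at this
      linarith
  have h2 := h1.move (-a)
  rwa [← H.add, neg_add_cancel, H.zero] at h2

variable (H)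

theorem hits {T₀ : ℝ} (hT₀ : 0 < T₀) (hw : ∀ q ∈ D.Q, ∃ t ∈ Icc (0 : ℝ) T₀, D.φ t q ∉ D.N)
    {k : (E × E) × (ℝ × ℝ)} (hk : k ∈ D.Hat) {σ : ℝ} (hσ : T₀ ≤ |H.T σ k|) :
    ∃ s ∈ uIcc 0 σ, (H.Φ s k).1.1 ∉ D.N ∧ |H.T s k| ≤ T₀ := by
  have hq : k.1.1 ∈ D.Q := D.sub _ hk.1
  have hiv : uIcc (H.T 0 k) (H.T σ k) ⊆ (fun s => H.T s k) '' uIcc 0 σ :=
    intermediate_value_uIcc (H.cont_Tk k).continuousOn
  rw [H.T_zero] at hiv
  rcases le_total 0 (H.T σ k) with h0 | h0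
  · rw [abs_of_nonneg h0] at hσ
    obtain ⟨t, ht, htN⟩ := hw _ hq
    obtain ⟨s, hs, hst⟩ := hiv (by rw [uIcc_of_le h0]; exact ⟨ht.1, ht.2.trans hσ⟩ : t ∈ _)
    refine ⟨s, hs, ?_, ?_⟩
    · rw [H.base hk]
      simp only at hst
      rwa [hst]
    · simp only at hst
      rw [hst, abs_of_nonneg ht.1]
      exact ht.2
  · rw [abs_of_nonpos h0] at hσ
    obtain ⟨t, ht, htN⟩ := hw _ (D.φ_mem hq (-T₀))
    obtain ⟨s, hs, hst⟩ := hiv (by
      rw [uIcc_of_ge h0]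
      exact ⟨by linarith [ht.1], by linarith [ht.2]⟩ : t - T₀ ∈ _)
    refine ⟨s, hs, ?_, ?_⟩
    · rw [H.base hk]
      simp only at hst
      rw [hst]
      rwa [← D.hφ.add] at htN
    · simp only at hst
      rw [hst, abs_le]
      exact ⟨by linarith [ht.1], by linarith [ht.2]⟩

theorem Loop.bounded {T₀ : ℝ} (hT₀ : 0 < T₀)
    (hw : ∀ q ∈ D.Q, ∃ t ∈ Icc (0 : ℝ) T₀, D.φ t q ∉ D.N) {H : D.HatFlow}
    {k : (E × E) × (ℝ × ℝ)} (h : H.Loop k) (σ : ℝ) : |H.T σ k| ≤ T₀ := by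
  by_contra hcon
  obtain ⟨s, -, hs, -⟩ := H.hits hT₀ hw h.1 (not_le.1 hcon).le
  exact hs (h.move s).mem_N

theorem loop_of_bounded {k : (E × E) × (ℝ × ℝ)} (hk : k ∈ D.Hat) {B : ℝ}
    (hB : ∀ σ, 0 ≤ σ → |H.T σ k| ≤ B) : H.Loop k := by
  have hcomp : IsCompact (D.Hat ×ˢ Icc (-B) B) := D.Hat_compact.prod isCompact_Icc
  obtain ⟨⟨k₀, t₀⟩, ⟨hk₀, -⟩, ψ, hψ, hlim⟩ := hcomp.tendsto_subseq
    (x := fun n : ℕ => (H.Φ n k, H.T n k))
    (fun n => ⟨H.mem k hk n, abs_le.1 (hB n (Nat.cast_nonneg n))⟩)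
  obtain ⟨O, hO, ε, hε, hlu⟩ := H.local_unique hk₀ (show (0 : ℝ) < 1 / 2 by norm_num)
  have h1 : Tendsto (fun n => H.Φ (ψ n) k) atTop (𝓝 k₀) := (continuous_fst.tendsto _).comp hlim
  have h2 : Tendsto (fun n => H.T (ψ n) k) atTop (𝓝 t₀) := (continuous_snd.tendsto _).comp hlim
  have h3 : ∀ᶠ n in atTop, H.Φ (ψ n) k ∈ O := h1.eventually_mem hO
  have h4 : ∀ᶠ n in atTop, |H.T (ψ n) k - t₀| < ε / 2 := by
    have := Metric.tendsto_nhds.1 h2 (ε / 2) (by positivity)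
    simpa [Real.dist_eq] using this
  obtain ⟨n, hn⟩ := (h3.and h4).exists_forall_of_atTop
  obtain ⟨ha1, ha2⟩ := hn n (le_refl n)
  obtain ⟨hb1, hb2⟩ := hn (n + 1) (Nat.le_succ n)
  have hlt : ψ n + 1 ≤ ψ (n + 1) := hψ (Nat.lt_succ_self n)
  have hlt' : (ψ n : ℝ) + 1 ≤ ψ (n + 1) := by exact_mod_cast hlt
  obtain ⟨σ, hσ, hσ1, hσ2⟩ := hlu _ ha1 _ hb1 (H.mem k hk _) (H.mem k hk _)
    (H.T (ψ (n + 1)) k - H.T (ψ n) k) (by
      have : H.T (ψ (n + 1)) k - H.T (ψ n) k = (H.T (ψ (n + 1)) k - t₀) - (H.T (ψ n) k - t₀) := by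
        ring
      rw [this]
      exact (abs_sub _ _).trans_lt (by linarith)) (by
      rw [H.base hk, H.base hk, ← D.hφ.add]
      congr 1
      ring)
  have hσ' := abs_lt.1 hσ
  refine loop_of_eq hk (a := σ + ψ n) (b := ψ (n + 1)) (by linarith) ?_ ?_
  · rw [H.add, hσ1]
  · rw [H.T_add, hσ2]
    ring

theorem no_loop (k : (E × E) × (ℝ × ℝ)) : ¬ H.Loop k := by
  obtain ⟨T₀, hT₀, hw⟩ := D.exists_wall_time
  -- closedness
  have hcl : IsClosed {k | H.Loop k} := by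
    apply IsSeqClosed.isClosed
    intro x x₀ hx hlim
    refine H.loop_of_bounded (D.Hat_compact.isClosed.mem_of_tendsto hlim
      (Eventually.of_forall fun n => (hx n).1)) (B := T₀) fun σ _ => ?_
    have h1 : Tendsto (fun n => |H.T σ (x n)|) atTop (𝓝 |H.T σ x₀|) :=
      (((H.cont_Tσ σ).tendsto x₀).comp hlim).abs
    exact le_of_tendsto h1 (Eventually.of_forall fun n => (hx n).bounded hT₀ hw σ)
  -- openness
  have hop : ∀ k, H.Loop k → ∀ᶠ k' in 𝓝 k, k' ∈ D.Hat → H.Loop k' := by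
    rintro k ⟨hk, P, hP, h1, h2⟩
    obtain ⟨O, hO, ε, hε, hlu⟩ := H.local_unique hk (show (0 : ℝ) < P / 2 by positivity)
    have h3 : ∀ᶠ k' in 𝓝 k, H.Φ P k' ∈ O := by
      refine (H.cont_Φ P).continuousAt.eventually_mem ?_
      rw [h1]
      exact hO
    have h4 : ∀ᶠ k' in 𝓝 k, |H.T P k'| < ε := by
      have h5 : ContinuousAt (fun k' => |H.T P k'|) k := ((H.cont_Tσ P).abs).continuousAt
      refine h5.eventually (gt_mem_nhds ?_)
      beta_reduce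
      rw [h2, abs_zero]
      exact hε
    filter_upwards [hO, h3, h4] with k' h5 h6 h7 hk'
    obtain ⟨σ, hσ, hσ1, hσ2⟩ := hlu _ h5 _ h6 hk' (H.mem k' hk' _) _ h7 (H.base hk' P)
    have hσ' := abs_lt.1 hσ
    exact loop_of_eq hk' (a := σ) (b := P) (by linarith) hσ1 hσ2
  -- the reversal
  have hneg : ∀ k, H.Loop k → H.Loop (k.1, -k.2) := by
    rintro k ⟨hk, P, hP, h1, h2⟩
    have h3 : H.Φ (-P) k = k := by
      nth_rw 1 [← h1]
      rw [← H.add, neg_add_cancel, H.zero]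
    refine ⟨D.Hat_neg hk, P, hP, ?_, ?_⟩
    · rw [H.rev k hk, h3]
    · rw [H.T_neg hk]
      have h4 := H.T_add (-P) P k
      rw [neg_add_cancel, H.T_zero, h2, h1] at h4
      linarith
  intro hloop
  set A : Set (E × E) := Prod.fst '' {k | H.Loop k} with hA
  set B : Set (E × E) := Prod.fst '' {k | k ∈ D.Hat ∧ ¬ H.Loop k} with hB
  have hAc : IsClosed A := by
    have : IsCompact {k | H.Loop k} :=
      D.Hat_compact.of_isClosed_subset hcl (fun k hk => hk.1)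
    exact (this.image continuous_fst).isClosed
  have hBc : IsClosed B := by
    have h1 : IsClosed {k | k ∈ D.Hat ∧ ¬ H.Loop k} := by
      rw [← isOpen_compl_iff, isOpen_iff_mem_nhds]
      intro k hk
      by_cases hkH : k ∈ D.Hat
      · have hkL : H.Loop k := by
          by_contra hcon
          exact hk ⟨hkH, hcon⟩
        filter_upwards [hop k hkL] with k' hk'
        rintro ⟨h1, h2⟩
        exact h2 (hk' h1)
      · filter_upwards [D.Hat_compact.isClosed.isOpen_compl.mem_nhds hkH] with k' hk'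
        rintro ⟨h1, -⟩
        exact hk' h1
    have : IsCompact {k | k ∈ D.Hat ∧ ¬ H.Loop k} :=
      D.Hat_compact.of_isClosed_subset h1 (fun k hk => hk.1)
    exact (this.image continuous_fst).isClosed
  have hcov : D.L ⊆ A ∪ B := by
    intro z hz
    obtain ⟨u, v, huv, hu⟩ := D.Lf_exists hz
    have hk : ((z, u) : (E × E) × (ℝ × ℝ)) ∈ D.Hat := ⟨hz, ⟨v, huv⟩, hu⟩
    by_cases hl : H.Loop (z, u)
    · exact Or.inl ⟨(z, u), hl, rfl⟩
    · exact Or.inr ⟨(z, u), ⟨hk, hl⟩, rfl⟩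
  have hAL : (D.L ∩ A).Nonempty := ⟨k.1, hloop.1.1, k, hloop, rfl⟩
  obtain ⟨k₀, hk₀, hk₀N⟩ := D.exists_wall_point
  have hBL : (D.L ∩ B).Nonempty := by
    refine ⟨k₀.1, hk₀.1, k₀, ⟨hk₀, fun hl => hk₀N hl.mem_N⟩, rfl⟩
  obtain ⟨z, -, ⟨k₁, hk₁, hz1⟩, ⟨k₂, hk₂, hz2⟩⟩ :=
    isPreconnected_closed_iff.1 D.conn.isPreconnected A B hAc hBc hcov hAL hBL
  have h12 : k₂.1 = k₁.1 := by rw [hz1, hz2]
  rcases D.Hat_pm hk₁.1 hk₂.1 h12 with h | h
  · exact hk₂.2 (h ▸ hk₁)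
  · exact hk₂.2 (h ▸ hneg k₁ hk₁)

theorem no_return {k : (E × E) × (ℝ × ℝ)} (hk : k ∈ D.Hat) {σ : ℝ} (hσ : σ ≠ 0)
    (hT : H.T σ k = 0) : D.h (H.Φ σ k).1 ≠ D.h k.1 := by
  intro hh
  have hmem := H.mem k hk σ
  have h1 : (H.Φ σ k).1.1 = k.1.1 := by rw [H.base hk, hT, D.hφ.zero]
  have h2 : (H.Φ σ k).1 = k.1 := D.h_inj hmem.1 hk.1 h1 hh
  rcases D.Hat_pm hk hmem h2 with h3 | h3
  · rcases lt_or_gt_of_ne hσ with h | h
    · exact H.no_loop k (loop_of_eq hk h (by rw [h3, H.zero]) (by rw [hT, H.T_zero]))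
    · exact H.no_loop k (loop_of_eq hk h (by rw [h3, H.zero]) (by rw [hT, H.T_zero]))
  · exact H.no_turn hk σ h3

theorem unbounded {k : (E × E) × (ℝ × ℝ)} (hk : k ∈ D.Hat) (B : ℝ) :
    ∃ σ, 0 ≤ σ ∧ B < |H.T σ k| := by
  by_contra hcon
  push Not at hcon
  exact H.no_loop k (H.loop_of_bounded hk hcon)

theorem wall_sign {k : (E × E) × (ℝ × ℝ)} (hk : k ∈ D.Hat) (hN : k.1.1 ∉ D.N) {σ : ℝ}
    (hσ : σ ≠ 0) : 0 < σ * (k.2.1 * H.T σ k) := by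
  rcases lt_or_gt_of_ne hσ with h | h
  · have h1 := H.wall (D.Hat_neg hk) hN (show 0 < -σ by linarith)
    rw [H.T_neg hk, neg_neg, Prod.fst_neg] at h1
    nlinarith
  · exact mul_pos h (H.wall hk hN h)

/-- the curve through `k` crosses a wall in the positive direction -/
def Pos (k : (E × E) × (ℝ × ℝ)) : Prop := ∃ σ, (H.Φ σ k).1.1 ∉ D.N ∧ 0 < (H.Φ σ k).2.1

theorem wall_ne {k : (E × E) × (ℝ × ℝ)} (hk : k ∈ D.Hat) (hN : k.1.1 ∉ D.N) : k.2.1 ≠ 0 := by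
  intro ha
  obtain ⟨h1, ⟨v, hv⟩, h3⟩ := hk
  have h4 : v.1 = 0 := by
    rw [hv.2.1, ha, zero_smul]
  have h5 := D.transverse _ h1 hN v hv.1 h4
  have h6 := hv.2.2
  rw [h5, map_zero] at h6
  rw [ha, ← h6] at h3
  simp at h3

/-- all crossings of walls have the same direction -/
theorem same_sign {k : (E × E) × (ℝ × ℝ)} (hk : k ∈ D.Hat) {σ σ' : ℝ}
    (h1 : (H.Φ σ k).1.1 ∉ D.N) (h2 : 0 < (H.Φ σ k).2.1) (h3 : (H.Φ σ' k).1.1 ∉ D.N) :
    0 < (H.Φ σ' k).2.1 := by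
  by_cases hσ : σ' = σ
  · rw [hσ]
    exact h2
  have hm := H.mem k hk σ
  have hm' := H.mem k hk σ'
  have h4 := H.wall_sign hm h1 (sub_ne_zero.2 hσ)
  have h5 := H.wall_sign hm' h3 (sub_ne_zero.2 (Ne.symm hσ))
  have h6 := H.T_add (σ' - σ) σ k
  have h7 := H.T_add (σ - σ') σ' k
  rw [sub_add_cancel] at h6 h7
  have h8 : H.T (σ - σ') (H.Φ σ' k) = -H.T (σ' - σ) (H.Φ σ k) := by linarith
  rw [h8] at h5
  set a := (H.Φ σ k).2.1
  set a' := (H.Φ σ' k).2.1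
  set t := H.T (σ' - σ) (H.Φ σ k)
  have h9 : 0 < (σ' - σ) * t := by
    by_contra hcon
    have : (σ' - σ) * (a * t) = a * ((σ' - σ) * t) := by ring
    rw [this] at h4
    nlinarith
  by_contra hcon
  have : (σ - σ') * (a' * -t) = a' * ((σ' - σ) * t) := by ring
  rw [this] at h5
  nlinarith

theorem pos_or_neg {k : (E × E) × (ℝ × ℝ)} (hk : k ∈ D.Hat) : H.Pos k ∨ H.Pos (k.1, -k.2) := by
  obtain ⟨T₀, hT₀, hw⟩ := D.exists_wall_time
  obtain ⟨σ, -, hσ⟩ := H.unbounded hk T₀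
  obtain ⟨s, -, hs, -⟩ := H.hits hT₀ hw hk hσ.le
  rcases lt_or_gt_of_ne (wall_ne (H.mem k hk s) hs) with h | h
  · right
    refine ⟨-s, ?_⟩
    rw [H.rev k hk, neg_neg]
    exact ⟨hs, by simpa using h⟩
  · exact Or.inl ⟨s, hs, h⟩

theorem not_pos_neg {k : (E × E) × (ℝ × ℝ)} (hk : k ∈ D.Hat) (h : H.Pos k) :
    ¬ H.Pos (k.1, -k.2) := by
  rintro ⟨σ', h3, h4⟩
  obtain ⟨σ, h1, h2⟩ := h
  rw [H.rev k hk] at h3 h4
  have := H.same_sign hk h1 h2 h3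
  simp only [Prod.fst_neg] at h4
  linarith

theorem pos_move {k : (E × E) × (ℝ × ℝ)} (h : H.Pos k) (s : ℝ) : H.Pos (H.Φ s k) := by
  obtain ⟨σ, h1, h2⟩ := h
  refine ⟨σ - s, ?_⟩
  rw [← H.add, sub_add_cancel]
  exact ⟨h1, h2⟩

theorem pos_open : IsOpen {k | H.Pos k} := by
  have : {k | H.Pos k} = ⋃ σ, {k | (H.Φ σ k).1.1 ∉ D.N ∧ 0 < (H.Φ σ k).2.1} := by
    ext k
    simp [Pos]
  rw [this]
  refine isOpen_iUnion fun σ => ?_
  have h1 : Continuous fun k => (H.Φ σ k).1.1 :=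
    continuous_fst.comp (continuous_fst.comp (H.cont_Φ σ))
  have h2 : Continuous fun k => (H.Φ σ k).2.1 :=
    continuous_fst.comp (continuous_snd.comp (H.cont_Φ σ))
  exact (D.hN.isOpen_compl.preimage h1).inter (isOpen_lt continuous_const h2)

/-- the positive lifts form a compact set -/
theorem pos_compact : IsCompact {k | k ∈ D.Hat ∧ H.Pos k} := by
  refine D.Hat_compact.of_isClosed_subset ?_ fun k hk => hk.1
  have h1 : {k | k ∈ D.Hat ∧ H.Pos k} = D.Hat ∩ {k | H.Pos (k.1, -k.2)}ᶜ := by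
    ext k
    constructor
    · rintro ⟨h1, h2⟩
      exact ⟨h1, H.not_pos_neg h1 h2⟩
    · rintro ⟨h1, h2⟩
      exact ⟨h1, (H.pos_or_neg h1).resolve_right h2⟩
  rw [h1]
  have h2 : Continuous fun k : (E × E) × (ℝ × ℝ) => (k.1, -k.2) := by fun_prop
  exact D.Hat_compact.isClosed.inter (H.pos_open.preimage h2).isClosed_compl

theorem drift_one {k : (E × E) × (ℝ × ℝ)} (hk : k ∈ D.Hat) (h : H.Pos k) :
    ∃ σ > 0, (H.Φ σ k).1.1 ∉ D.N ∧ 0 < (H.Φ σ k).2.1 ∧ 0 < H.T σ k := by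
  obtain ⟨T₀, hT₀, hw⟩ := D.exists_wall_time
  obtain ⟨σ₀, h1, h2⟩ := h
  have hm := H.mem k hk σ₀
  obtain ⟨s, hs0, hs⟩ := H.unbounded hm (|H.T σ₀ k| + T₀ + 1)
  have hspos : 0 < s := by
    rcases eq_or_lt_of_le hs0 with h | h
    · rw [← h, H.T_zero, abs_zero] at hs
      have := abs_nonneg (H.T σ₀ k)
      linarith
    · exact h
  have hTpos : 0 < H.T s (H.Φ σ₀ k) := by
    have := H.wall hm h1 hspos
    exact (mul_pos_iff_of_pos_left h2).1 this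
  rw [abs_of_pos hTpos] at hs
  set m₂ := H.Φ s (H.Φ σ₀ k) with hm₂
  have hm₂H : m₂ ∈ D.Hat := H.mem _ hm s
  obtain ⟨s₂, -, hs₂⟩ := H.unbounded hm₂H T₀
  obtain ⟨s₃, -, hs₃, hs₃'⟩ := H.hits hT₀ hw hm₂H hs₂.le
  have h5 : H.Φ s₃ m₂ = H.Φ (s₃ + (s + σ₀)) k := by
    rw [H.add, H.add]
  have h6 : H.T (s₃ + (s + σ₀)) k = H.T σ₀ k + H.T s (H.Φ σ₀ k) + H.T s₃ m₂ := by
    rw [H.T_add, H.T_add, H.add]
  have h7 : 0 < H.T (s₃ + (s + σ₀)) k := by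
    rw [h6]
    have := neg_abs_le (H.T σ₀ k)
    have := (abs_le.1 hs₃').1
    linarith
  rw [h5] at hs₃
  have h8 := H.same_sign hk h1 h2 hs₃
  set σ := s₃ + (s + σ₀) with hσ
  have hσ0 : σ ≠ 0 := by
    intro h
    rw [h, H.T_zero] at h7
    exact lt_irrefl _ h7
  have h9 := H.wall_sign (H.mem k hk σ) hs₃ (neg_ne_zero.2 hσ0)
  have h10 := H.T_add (-σ) σ k
  rw [neg_add_cancel, H.T_zero] at h10
  have h11 : H.T (-σ) (H.Φ σ k) = -H.T σ k := by linarith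
  rw [h11] at h9
  refine ⟨σ, ?_, hs₃, h8, h7⟩
  have h12 : -σ * ((H.Φ σ k).2.1 * -H.T σ k) = σ * ((H.Φ σ k).2.1 * H.T σ k) := by ring
  rw [h12] at h9
  exact pos_of_mul_pos_left h9 (mul_pos h8 h7).le

theorem drift : ∃ S > 0, ∀ k ∈ D.Hat, H.Pos k → ∀ σ ≥ S, 0 < H.T σ k := by
  -- an open cover
  set U : ℝ → Set ((E × E) × (ℝ × ℝ)) := fun σ =>
    {k | (H.Φ σ k).1.1 ∉ D.N ∧ 0 < (H.Φ σ k).2.1 ∧ 0 < H.T σ k ∧ 0 < σ} with hU
  have hUo : ∀ σ, IsOpen (U σ) := by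
    intro σ
    have h1 : Continuous fun k => (H.Φ σ k).1.1 :=
      continuous_fst.comp (continuous_fst.comp (H.cont_Φ σ))
    have h2 : Continuous fun k => (H.Φ σ k).2.1 :=
      continuous_fst.comp (continuous_snd.comp (H.cont_Φ σ))
    exact (D.hN.isOpen_compl.preimage h1).inter ((isOpen_lt continuous_const h2).inter
      ((isOpen_lt continuous_const (H.cont_Tσ σ)).inter isOpen_const))
  obtain ⟨t, ht⟩ := H.pos_compact.elim_finite_subcover U hUo (by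
    rintro k ⟨hk, hp⟩
    obtain ⟨σ, h0, h1, h2, h3⟩ := H.drift_one hk hp
    exact mem_iUnion.2 ⟨σ, h1, h2, h3, h0⟩)
  refine ⟨∑ σ ∈ t, |σ| + 1, by positivity, fun k hk hp σ' hσ' => ?_⟩
  obtain ⟨σ, hσt, h1, h2, h3, h4⟩ := mem_iUnion₂.1 (ht ⟨hk, hp⟩)
  have h5 : |σ| ≤ ∑ σ ∈ t, |σ| := Finset.single_le_sum (f := fun σ => |σ|)
    (fun σ _ => abs_nonneg σ) hσt
  have h6 : σ < σ' := by
    have := le_abs_self σ
    linarith
  have h7 := H.T_add (σ' - σ) σ k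
  rw [sub_add_cancel] at h7
  rw [h7]
  have h8 := H.wall (H.mem k hk σ) h1 (sub_pos.2 h6)
  have h9 := (mul_pos_iff_of_pos_left h2).1 h8
  linarith

end HatFlow

end Setup

end Vale.Agent.P220.R2.H57
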