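import Vale.Agent.P220.R2.H57.Drift
import Vale.Agent.P220.R2.H57.Angle

/-!
The oriented leafwise field and its angle.
-/

open Set Filter Topology
open scoped ContDiff Manifold

set_option linter.unusedSectionVars false

namespace Vale.Agent.P220.R2.H57

variable {E : Type} [NormedAddCommGroup E] [InnerProductSpace ℝ E] [FiniteDimensional ℝ E]

namespace Setup

variable (D : Setup E)

/-- The oriented leafwise field, its flow, and the lift to the double cover. -/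
structure Leaf where
  H : D.HatFlow
  u : E × E → ℝ × ℝ
  Z : E × E → E × E
  hu : ContDiff ℝ ∞ u
  hZ : ContDiff ℝ ∞ Z
  lf : ∀ z ∈ D.L, D.Lf z (u z) (Z z)
  unit : ∀ z ∈ D.L, (u z).1 ^ 2 + (u z).2 ^ 2 = 1
  pos : ∀ z ∈ D.L, H.Pos (z, u z)
  ζ : ℝ → E × E → E × E
  hζ : IsFlow Z ζ

theorem exists_leaf : Nonempty D.Leaf := by
  classical
  obtain ⟨H⟩ := D.exists_hatFlow
  have hex : ∀ z : E × E, ∃ x : (ℝ × ℝ) × (E × E), z ∈ D.L →
      D.Lf z x.1 x.2 ∧ x.1.1 ^ 2 + x.1.2 ^ 2 = 1 ∧ H.Pos (z, x.1) := by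
    intro z
    by_cases hz : z ∈ D.L
    · obtain ⟨u, v, h1, h2⟩ := D.Lf_exists hz
      have hk : ((z, u) : (E × E) × (ℝ × ℝ)) ∈ D.Hat := ⟨hz, ⟨v, h1⟩, h2⟩
      rcases H.pos_or_neg hk with h | h
      · exact ⟨(u, v), fun _ => ⟨h1, h2, h⟩⟩
      · refine ⟨(-u, -v), fun _ => ⟨?_, ?_, h⟩⟩
        · simpa using h1.smul (-1)
        · simpa using h2
    · exact ⟨0, fun h => absurd h hz⟩
  choose x hx using hex
  obtain ⟨G, hG, hGx⟩ := glue D.hL.isClosed x (by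
    intro z₀ hz₀
    obtain ⟨h1, h2, h3⟩ := hx z₀ hz₀
    obtain ⟨O, hO, u, v, hu, hv, hu0, hv0, hpos, hLf⟩ := D.local_section hz₀ h1 h2
    have hs : ContDiffOn ℝ ∞ (fun z => (Real.sqrt ((u z).1 ^ 2 + (u z).2 ^ 2))⁻¹) O := by
      refine ContDiffOn.inv (ContDiffOn.sqrt (((contDiff_fst.comp_contDiffOn hu).pow 2).add
          ((contDiff_snd.comp_contDiffOn hu).pow 2)) fun z hz => (hpos z hz).ne') fun z hz => ?_
      exact (Real.sqrt_pos.2 (hpos z hz)).ne'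
    set w : E × E → ℝ × ℝ := fun z => (Real.sqrt ((u z).1 ^ 2 + (u z).2 ^ 2))⁻¹ • u z with hw
    have hws : ContDiffOn ℝ ∞ w O := hs.smul hu
    have hwv : ContDiffOn ℝ ∞ (fun z => (Real.sqrt ((u z).1 ^ 2 + (u z).2 ^ 2))⁻¹ • v z) O :=
      hs.smul hv
    have hw0 : w z₀ = (x z₀).1 := by
      simp only [hw]
      rw [hu0, h2]
      simp
    have hwc : ContinuousAt (fun z => ((z, w z) : (E × E) × (ℝ × ℝ))) z₀ :=
      continuousAt_id.prodMk (hws.continuousOn.continuousAt hO)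
    have hev : ∀ᶠ z in 𝓝 z₀, H.Pos (z, w z) := by
      refine hwc.eventually_mem (s := {k | H.Pos k}) (H.pos_open.mem_nhds ?_)
      change H.Pos (z₀, w z₀)
      rw [hw0]
      exact h3
    refine ⟨O ∩ {z | H.Pos (z, w z)}, inter_mem hO hev,
      fun z => (w z, (Real.sqrt ((u z).1 ^ 2 + (u z).2 ^ 2))⁻¹ • v z),
      (hws.prodMk hwv).mono inter_subset_left, ?_⟩
    rintro z ⟨hzO, hzp⟩ hz
    obtain ⟨h4, h5, h6⟩ := hx z hz
    have h7 := (hLf z hzO hz).smul (Real.sqrt ((u z).1 ^ 2 + (u z).2 ^ 2))⁻¹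
    have h8 : (w z).1 ^ 2 + (w z).2 ^ 2 = 1 := by
      simp only [hw, Prod.smul_fst, Prod.smul_snd, smul_eq_mul, mul_pow]
      rw [← mul_add, inv_pow, Real.sq_sqrt (hpos z hzO).le]
      exact inv_mul_cancel₀ (hpos z hzO).ne'
    have hk1 : ((z, w z) : (E × E) × (ℝ × ℝ)) ∈ D.Hat := ⟨hz, ⟨_, h7⟩, h8⟩
    have hk2 : ((z, (x z).1) : (E × E) × (ℝ × ℝ)) ∈ D.Hat := ⟨hz, ⟨_, h4⟩, h5⟩
    have h9 : w z = (x z).1 := by
      rcases D.Hat_pm hk2 hk1 rfl with h | h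
      · exact congrArg Prod.snd h
      · exfalso
        have h10 : w z = -(x z).1 := congrArg Prod.snd h
        have hzp' : H.Pos (z, w z) := hzp
        rw [h10] at hzp'
        exact H.not_pos_neg hk2 h6 hzp'
    refine Prod.ext h9 ?_
    have h11 : D.Lf z (x z).1 ((Real.sqrt ((u z).1 ^ 2 + (u z).2 ^ 2))⁻¹ • v z) := h9 ▸ h7
    exact h11.unique hz h4)
  obtain ⟨B, hB⟩ := D.cL.isBounded.exists_norm_le
  obtain ⟨χ, hχ, hχc, hχ1⟩ := exists_cutoff (F := E × E) B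
  have hZs : ContDiff ℝ ∞ (fun z => χ z • (G z).2) := hχ.smul (contDiff_snd.comp hG)
  obtain ⟨ζ, hζ⟩ := exists_flow_compact hZs hχc.smul_right
  refine ⟨⟨H, fun z => (G z).1, fun z => χ z • (G z).2, contDiff_fst.comp hG, hZs, ?_, ?_, ?_, ζ, hζ⟩⟩
  · intro z hz
    rw [hχ1 z (hB z hz), one_smul, hGx z hz]
    exact (hx z hz).1
  · intro z hz
    rw [hGx z hz]
    exact (hx z hz).2.1
  · intro z hz
    rw [hGx z hz]
    exact (hx z hz).2.2

namespace Leaf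

variable {D} (Λ : D.Leaf)

theorem Z_tan {z : E × E} (hz : z ∈ D.L) : Λ.Z z ∈ Tn D.ρ z := (Λ.lf z hz).1

theorem Z_fst {z : E × E} (hz : z ∈ D.L) : (Λ.Z z).1 = (Λ.u z).1 • D.X z.1 := (Λ.lf z hz).2.1

theorem Z_h {z : E × E} (hz : z ∈ D.L) : fderiv ℝ D.h z (Λ.Z z) = (Λ.u z).2 := (Λ.lf z hz).2.2

theorem mem_hat {z : E × E} (hz : z ∈ D.L) : ((z, Λ.u z) : (E × E) × (ℝ × ℝ)) ∈ D.Hat :=
  ⟨hz, ⟨_, Λ.lf z hz⟩, Λ.unit z hz⟩

theorem ζ_mem {z : E × E} (hz : z ∈ D.L) (σ : ℝ) : Λ.ζ σ z ∈ D.L :=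
  D.hL.flow_mem Λ.hZ Λ.hζ (fun _ h => Λ.Z_tan h) hz σ

theorem lift {z : E × E} (hz : z ∈ D.L) (σ : ℝ) : Λ.H.Φ σ (z, Λ.u z) = (Λ.ζ σ z, Λ.u (Λ.ζ σ z)) := by
  have hk := Λ.mem_hat hz
  -- the second component is the positive unit vector
  have h1 : ∀ σ, (Λ.H.Φ σ (z, Λ.u z)).2 = Λ.u (Λ.H.Φ σ (z, Λ.u z)).1 := by
    intro σ
    have hm := Λ.H.mem _ hk σ
    have hp := Λ.H.pos_move (Λ.pos z hz) σ
    have hk2 := Λ.mem_hat hm.1
    rcases D.Hat_pm hk2 hm rfl with h | h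
    · exact congrArg Prod.snd h
    · exfalso
      rw [h] at hp
      exact Λ.H.not_pos_neg hk2 (Λ.pos _ hm.1) hp
  have h2 : ∀ σ, (Λ.H.Φ σ (z, Λ.u z)).1 = Λ.ζ σ z := by
    have h3 := Λ.hζ.uniq (fun σ => (Λ.H.Φ σ (z, Λ.u z)).1) (fun t => by
      obtain ⟨v, hv, hd⟩ := Λ.H.deriv _ hk t
      have hm := Λ.H.mem _ hk t
      rw [h1 t] at hv
      have h4 := hv.unique hm.1 (Λ.lf _ hm.1)
      rw [← h4]
      exact hd)
    intro σ
    have h5 := h3 σ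
    simp only [Λ.H.zero] at h5
    exact h5
  refine Prod.ext (h2 σ) ?_
  rw [h1, h2]

/-- the leafwise time -/
noncomputable def T (σ : ℝ) (z : E × E) : ℝ := ∫ s in (0 : ℝ)..σ, (Λ.u (Λ.ζ s z)).1

theorem T_eq {z : E × E} (hz : z ∈ D.L) (σ : ℝ) : Λ.T σ z = Λ.H.T σ (z, Λ.u z) := by
  unfold T HatFlow.T
  refine intervalIntegral.integral_congr fun s _ => ?_
  simp only [Λ.lift hz]

theorem cont_ζ : Continuous fun x : ℝ × (E × E) => Λ.ζ x.1 x.2 := Λ.hζ.continuous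

theorem cont_u : Continuous Λ.u := Λ.hu.continuous

theorem cont_T : Continuous fun x : ℝ × (E × E) => Λ.T x.1 x.2 := by
  unfold T
  have h1 : Continuous (Function.uncurry fun (x : ℝ × (E × E)) (s : ℝ) =>
      (Λ.u (Λ.ζ s x.2)).1) := by
    have h2 : Continuous fun y : (ℝ × (E × E)) × ℝ => Λ.ζ y.2 y.1.2 :=
      Λ.cont_ζ.comp (continuous_snd.prodMk (continuous_snd.comp continuous_fst))
    exact continuous_fst.comp (Λ.cont_u.comp h2)
  exact intervalIntegral.continuous_parametric_intervalIntegral_of_continuous h1 continuous_fst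

theorem T_zero (z : E × E) : Λ.T 0 z = 0 := by simp [T]

theorem T_add {z : E × E} (hz : z ∈ D.L) (s t : ℝ) : Λ.T (s + t) z = Λ.T t z + Λ.T s (Λ.ζ t z) := by
  rw [Λ.T_eq hz, Λ.T_eq hz, Λ.T_eq (Λ.ζ_mem hz t), Λ.H.T_add, Λ.lift hz]

theorem hasDerivAt_T {z : E × E} (hz : z ∈ D.L) (σ : ℝ) :
    HasDerivAt (fun s => Λ.T s z) (Λ.u (Λ.ζ σ z)).1 σ := by
  have h1 := Λ.H.hasDerivAt_T σ (z, Λ.u z)
  have h2 : (fun s => Λ.T s z) = fun s => Λ.H.T s (z, Λ.u z) := funext fun s => Λ.T_eq hz s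
  rw [h2]
  rwa [Λ.lift hz] at h1

theorem hasDerivAt_h {z : E × E} (hz : z ∈ D.L) (σ : ℝ) :
    HasDerivAt (fun s => D.h (Λ.ζ s z)) (Λ.u (Λ.ζ σ z)).2 σ := by
  have h1 : HasFDerivAt D.h (fderiv ℝ D.h (Λ.ζ σ z)) (Λ.ζ σ z) :=
    (D.h_smooth.differentiable (by simp) _).hasFDerivAt
  have := h1.comp_hasDerivAt σ (Λ.hζ.deriv σ z)
  rwa [Λ.Z_h (Λ.ζ_mem hz σ)] at this

theorem base {z : E × E} (hz : z ∈ D.L) (σ : ℝ) : (Λ.ζ σ z).1 = D.φ (Λ.T σ z) z.1 := by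
  have h1 := Λ.H.base (Λ.mem_hat hz) σ
  rwa [Λ.lift hz, ← Λ.T_eq hz] at h1

theorem no_return {z : E × E} (hz : z ∈ D.L) {σ : ℝ} (hσ : σ ≠ 0) (hT : Λ.T σ z = 0) :
    D.h (Λ.ζ σ z) ≠ D.h z := by
  have h1 := Λ.H.no_return (Λ.mem_hat hz) hσ (by rw [← Λ.T_eq hz]; exact hT)
  rwa [Λ.lift hz] at h1

theorem wall_pos {z : E × E} (hz : z ∈ D.L) (hN : z.1 ∉ D.N) : 0 < (Λ.u z).1 := by
  obtain ⟨σ, h1, h2⟩ := Λ.pos z hz
  have h3 := Λ.H.same_sign (Λ.mem_hat hz) h1 h2 (σ' := 0) (by rw [Λ.H.zero]; exact hN)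
  rwa [Λ.H.zero] at h3

theorem wall_T {z : E × E} (hz : z ∈ D.L) (hN : z.1 ∉ D.N) {σ : ℝ} (hσ : 0 < σ) :
    0 < Λ.T σ z := by
  have h1 := Λ.H.wall (Λ.mem_hat hz) hN hσ
  rw [← Λ.T_eq hz] at h1
  exact (mul_pos_iff_of_pos_left (Λ.wall_pos hz hN)).1 h1

theorem drift : ∃ S > 0, ∀ z ∈ D.L, ∀ σ ≥ S, 0 < Λ.T σ z := by
  obtain ⟨S, hS, h⟩ := Λ.H.drift
  refine ⟨S, hS, fun z hz σ hσ => ?_⟩
  rw [Λ.T_eq hz]
  exact h _ (Λ.mem_hat hz) (Λ.pos z hz) σ hσ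

/-- the leafwise time is unbounded in both directions -/
theorem T_large {z : E × E} (hz : z ∈ D.L) (B : ℝ) :
    (∃ σ > 0, B < Λ.T σ z) ∧ ∃ σ < 0, Λ.T σ z < B := by
  obtain ⟨S, hS, hdrift⟩ := Λ.drift
  obtain ⟨c, hc, hcL⟩ := D.cL.exists_forall_le' (f := fun z => Λ.T S z) (a := 0)
    ((Λ.cont_T.comp (continuous_const.prodMk continuous_id)).continuousOn)
    (fun z hz => hdrift z hz S (le_refl S))
  have h1 : ∀ n : ℕ, ∀ z ∈ D.L, n * c ≤ Λ.T (n * S) z := by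
    intro n
    induction n with
    | zero => intro z _; simp [Λ.T_zero]
    | succ n ih =>
      intro z hz
      have h2 := Λ.T_add hz S (n * S)
      have h3 : ((n + 1 : ℕ) : ℝ) * S = S + n * S := by push_cast; ring
      rw [h3, h2]
      have h4 := ih z hz
      have h5 := hcL _ (Λ.ζ_mem hz (n * S))
      push_cast
      linarith
  obtain ⟨n, hn⟩ := exists_nat_gt (|B| / c)
  rw [div_lt_iff₀ hc] at hn
  have hn0 : 0 < (n : ℝ) := by
    by_contra hcon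
    have : (n : ℝ) * c ≤ 0 := mul_nonpos_of_nonpos_of_nonneg (not_lt.1 hcon) hc.le
    have := abs_nonneg B
    linarith
  refine ⟨⟨n * S, by positivity, ?_⟩, ⟨-(n * S), by
    have : 0 < (n : ℝ) * S := by positivity
    linarith, ?_⟩⟩
  · have := h1 n z hz
    have := le_abs_self B
    linarith
  · have h2 := Λ.T_add hz (n * S) (-(n * S))
    rw [add_neg_cancel, Λ.T_zero] at h2
    have h3 := h1 n _ (Λ.ζ_mem hz (-(n * S)))
    have := neg_abs_le B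
    linarith

/-- Vectors of `L` whose base component is a multiple of `X` are multiples of the field. -/
theorem leafwise {z : E × E} (hz : z ∈ D.L) {v : E × E} (hv : v ∈ Tn D.ρ z) {c : ℝ}
    (h : v.1 = c • D.X z.1) : ∃ l : ℝ, c = l * (Λ.u z).1 ∧ v = l • Λ.Z z := by
  have h1 : D.Lf z (c, fderiv ℝ D.h z v) v := ⟨hv, h, rfl⟩
  obtain ⟨l, hl, hl'⟩ := (Λ.lf z hz).prop hz h1 (Λ.unit z hz)
  exact ⟨l, congrArg Prod.fst hl, hl'⟩

/-- The angle of the leafwise field. -/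
theorem exists_angle : ∃ θ : E × E → ℝ, ContinuousOn θ D.L ∧
    (∀ z ∈ D.L, Λ.u z = (Real.cos (θ z), Real.sin (θ z))) ∧
    ∀ z ∈ D.L, z.1 ∉ D.N → |θ z| < Real.pi / 2 := by
  obtain ⟨S, hS, hdrift⟩ := Λ.drift
  set w : E × E → ℂ := fun z => ⟨(Λ.u z).1, (Λ.u z).2⟩ with hw
  have hwc : Continuous w := by
    have h1 : w = fun z => Complex.equivRealProdCLM.symm (Λ.u z) := by
      funext z
      apply Complex.ext <;> simp [hw]
    rw [h1]
    exact Complex.equivRealProdCLM.symm.continuous.comp Λ.cont_u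
  set P : ℝ × (E × E) → ℂ := fun x => ∫ r in (0 : ℝ)..1, w (Λ.ζ (r * x.1) x.2) with hP
  have hPc : Continuous P := by
    have h1 : Continuous (Function.uncurry fun (x : ℝ × (E × E)) (r : ℝ) =>
        w (Λ.ζ (r * x.1) x.2)) := by
      have h2 : Continuous fun y : (ℝ × (E × E)) × ℝ => Λ.ζ (y.2 * y.1.1) y.1.2 :=
        Λ.cont_ζ.comp ((continuous_snd.mul (continuous_fst.comp continuous_fst)).prodMk
          (continuous_snd.comp continuous_fst))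
      exact hwc.comp h2
    exact intervalIntegral.continuous_parametric_intervalIntegral_of_continuous' h1 0 1
  -- the chord
  have hchord : ∀ z ∈ D.L, ∀ σ : ℝ, (σ : ℂ) * P (σ, z) =
      ⟨Λ.T σ z, D.h (Λ.ζ σ z) - D.h z⟩ := by
    intro z hz σ
    have h1 : ∀ s, HasDerivAt (fun s => (⟨Λ.T s z, D.h (Λ.ζ s z) - D.h z⟩ : ℂ)) (w (Λ.ζ s z)) s := by
      intro s
      have h2 := (Λ.hasDerivAt_T hz s).prodMk ((Λ.hasDerivAt_h hz s).sub_const (D.h z))
      have h3 := (Complex.equivRealProdCLM.symm.toContinuousLinearMap).hasFDerivAt.comp_hasDerivAt s h2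
      have e1 : (fun s => (⟨Λ.T s z, D.h (Λ.ζ s z) - D.h z⟩ : ℂ)) =
          (Complex.equivRealProdCLM.symm.toContinuousLinearMap) ∘
            fun s => (Λ.T s z, D.h (Λ.ζ s z) - D.h z) := by
        funext s
        apply Complex.ext <;> simp
      have e2 : w (Λ.ζ s z) = Complex.equivRealProdCLM.symm.toContinuousLinearMap
          ((Λ.u (Λ.ζ s z)).1, (Λ.u (Λ.ζ s z)).2) := by
        apply Complex.ext <;> simp [hw]
      rw [e1, e2]
      exact h3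
    have h4 : Continuous fun s => w (Λ.ζ s z) :=
      hwc.comp (Λ.cont_ζ.comp (continuous_id.prodMk continuous_const))
    have h5 := intervalIntegral.integral_eq_sub_of_hasDerivAt (a := 0) (b := σ)
      (fun s _ => h1 s) (h4.intervalIntegrable 0 σ)
    have h6 : (σ : ℂ) * P (σ, z) = ∫ s in (0 : ℝ)..σ, w (Λ.ζ s z) := by
      simp only [hP]
      have h7 := intervalIntegral.smul_integral_comp_mul_right (fun s => w (Λ.ζ s z)) σ
        (a := 0) (b := 1)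
      rw [zero_mul, one_mul] at h7
      rw [← h7]
      simp
    rw [h6, h5, Λ.T_zero, Λ.hζ.zero, sub_self]
    have : (⟨0, 0⟩ : ℂ) = 0 := rfl
    rw [this, sub_zero]
  have hP0 : ∀ z, P (0, z) = w z := by
    intro z
    simp [hP, Λ.hζ.zero]
  have hre : ∀ z ∈ D.L, ∀ σ : ℝ, 0 < σ → (P (σ, z)).re = Λ.T σ z / σ := by
    intro z hz σ hσ
    have h1 := congrArg Complex.re (hchord z hz σ)
    rw [Complex.re_ofReal_mul] at h1
    rw [eq_div_iff hσ.ne', mul_comm]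
    exact h1
  have hne : ∀ σ ∈ Icc (0 : ℝ) S, ∀ z ∈ D.L, P (σ, z) ≠ 0 := by
    intro σ hσ z hz h0
    rcases eq_or_lt_of_le hσ.1 with h | h
    · rw [← h, hP0] at h0
      have h1 := Λ.unit z hz
      have h2 : (Λ.u z).1 = 0 := congrArg Complex.re h0
      have h3 : (Λ.u z).2 = 0 := congrArg Complex.im h0
      rw [h2, h3] at h1
      simp at h1
    · have h1 := hchord z hz σ
      rw [h0, mul_zero] at h1
      have h2 : Λ.T σ z = 0 := (congrArg Complex.re h1).symm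
      have h3 : D.h (Λ.ζ σ z) - D.h z = 0 := (congrArg Complex.im h1).symm
      exact Λ.no_return hz h.ne' h2 (sub_eq_zero.1 h3)
  obtain ⟨θ, hθc, hθ1, hθ2⟩ := angle_lift D.cL hPc hS.le hne (fun z hz => by
    rw [hre z hz S hS]
    exact div_pos (hdrift z hz S (le_refl S)) hS)
  refine ⟨θ, hθc, fun z hz => ?_, fun z hz hN => hθ2 z hz fun σ hσ => ?_⟩
  · have h1 := hθ1 z hz
    rw [hP0] at h1
    have h2 : ‖w z‖ = 1 := by
      have h3 : ‖w z‖ ^ 2 = 1 := by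
        rw [← Complex.normSq_eq_norm_sq, Complex.normSq_apply]
        have := Λ.unit z hz
        simp only [hw]
        linarith
      have h4 : 0 ≤ ‖w z‖ := norm_nonneg _
      nlinarith
    rw [h2, Complex.ofReal_one, one_mul] at h1
    refine Prod.ext ?_ ?_
    · have := congrArg Complex.re h1
      rw [Complex.exp_ofReal_mul_I_re] at this
      exact this
    · have := congrArg Complex.im h1
      rw [Complex.exp_ofReal_mul_I_im] at this
      exact this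
  · rcases eq_or_lt_of_le hσ.1 with h | h
    · rw [← h, hP0]
      exact Λ.wall_pos hz hN
    · rw [hre z hz σ h]
      exact div_pos (Λ.wall_T hz hN h) h

end Leaf

end Setup

end Vale.Agent.P220.R2.H57
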