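import Vale.Agent.P220.R2.H57.Ret

/-!
The leafwise line field of a one-momentum Lagrangian.
-/

open Set Filter Topology
open scoped ContDiff Manifold

set_option linter.unusedSectionVars false

namespace Vale.Agent.P220.R2.H57

/-- A one-momentum Lagrangian, with all the auxiliary data. -/
structure Setup (E : Type) [NormedAddCommGroup E] [InnerProductSpace ℝ E] where
  n : ℕ
  Q : Set E
  UQ : Set E
  r : E → E
  hQ : IsRet Q UQ r
  cQ : IsCompact Q
  dQ : ∀ q ∈ Q, Module.finrank ℝ (Tn r q) = n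
  connQ : IsConnected Q
  L : Set (E × E)
  UL : Set (E × E)
  ρ : E × E → E × E
  hL : IsRet L UL ρ
  cL : IsCompact L
  dL : ∀ z ∈ L, Module.finrank ℝ (Tn ρ z) = n
  conn : IsConnected L
  sub : ∀ z ∈ L, z.1 ∈ Q
  sub2 : ∀ z ∈ L, z.2 ∈ Tn r z.1
  N : Set E
  hN : IsClosed N
  X : E → E
  hX : ContDiff ℝ ∞ X
  cX : HasCompactSupport X
  tX : ∀ q ∈ Q, X q ∈ Tn r q
  φ : ℝ → E → E
  hφ : IsFlow X φ
  leaves : ∀ q ∈ Q, ∃ t, φ t q ∉ N
  meets : ∃ z ∈ L, z.1 ∉ N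
  uniq : ∀ z ∈ L, ∀ z' ∈ L, z.1 = z'.1 → inner ℝ z.2 (X z.1) = inner ℝ z'.2 (X z.1) → z = z'
  uniqN : ∀ z ∈ L, ∀ z' ∈ L, z.1 ∉ N → z.1 = z'.1 → z = z'
  transverse : ∀ z ∈ L, z.1 ∉ N → ∀ v ∈ Tn ρ z, v.1 = 0 → v = 0
  imm : ∀ z ∈ L, ∀ v ∈ Tn ρ z, v.1 = 0 → inner ℝ v.2 (X z.1) = 0 → v = 0
  f : E × E → ℝ
  hf : ContDiff ℝ ∞ f
  exact : ∀ z ∈ L, ∀ v ∈ Tn ρ z, fderiv ℝ f z v = inner ℝ z.2 v.1

variable {E : Type} [NormedAddCommGroup E] [InnerProductSpace ℝ E] [FiniteDimensional ℝ E]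

namespace Setup

variable (D : Setup E)

/-- the momentum `p(X)` -/
def h (z : E × E) : ℝ := inner ℝ z.2 (D.X z.1)

theorem h_smooth : ContDiff ℝ ∞ D.h := contDiff_snd.inner ℝ (D.hX.comp contDiff_fst)

theorem dh_apply (z v : E × E) :
    fderiv ℝ D.h z v = inner ℝ v.2 (D.X z.1) + inner ℝ z.2 (fderiv ℝ D.X z.1 v.1) := by
  have h1 : HasFDerivAt (fun z : E × E => z.2) (ContinuousLinearMap.snd ℝ E E) z := hasFDerivAt_snd
  have h2 : HasFDerivAt (fun z : E × E => D.X z.1)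
      ((fderiv ℝ D.X z.1).comp (ContinuousLinearMap.fst ℝ E E)) z :=
    ((D.hX.differentiable (by simp) z.1).hasFDerivAt).comp z hasFDerivAt_fst
  have h3 := h1.inner ℝ h2
  have h4 : HasFDerivAt D.h _ z := h3
  rw [h4.fderiv]
  simp
  ring

theorem h_inj {z z' : E × E} (hz : z ∈ D.L) (hz' : z' ∈ D.L) (h1 : z.1 = z'.1)
    (h2 : D.h z = D.h z') : z = z' := by
  refine D.uniq z hz z' hz' h1 ?_
  have h3 : (inner ℝ z.2 (D.X z.1) : ℝ) = inner ℝ z'.2 (D.X z'.1) := h2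
  rw [h3, h1]

theorem tan_fst {z : E × E} (hz : z ∈ D.L) {v : E × E} (hv : v ∈ Tn D.ρ z) :
    v.1 ∈ Tn D.r z.1 := by
  rw [← D.hL.mem_Tan hz] at hv
  obtain ⟨c, hc, hcS, h0, hv⟩ := hv
  have h1 : HasDerivAt c v 0 := by
    rw [← hv]
    exact (hc.differentiable (by simp) 0).hasDerivAt
  have h2 : HasDerivAt (fun t => (c t).1) v.1 0 :=
    (hasFDerivAt_fst (𝕜 := ℝ) (p := c 0)).comp_hasDerivAt 0 h1
  have := D.hQ.curve_tangent (Eventually.of_forall fun t => D.sub _ (hcS t)) h2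
  simpa [h0] using this

theorem isotropic {z : E × E} (hz : z ∈ D.L) {v w : E × E} (hv : v ∈ Tn D.ρ z)
    (hw : w ∈ Tn D.ρ z) : (inner ℝ v.2 w.1 : ℝ) = inner ℝ w.2 v.1 := by
  set g : E × E → ℝ := fun x => D.f (D.ρ x) with hg
  have hgs : ContDiff ℝ ∞ g := D.hf.comp D.hL.smooth
  have hρd : ∀ x, HasFDerivAt D.ρ (fderiv ℝ D.ρ x) x := D.hL.hasFDerivAt
  have hg1 : ∀ x, fderiv ℝ g x = (fderiv ℝ D.f (D.ρ x)).comp (fderiv ℝ D.ρ x) := fun x =>
    (((D.hf.differentiable (by simp) (D.ρ x)).hasFDerivAt).comp x (hρd x)).fderiv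
  have hρ2 : Differentiable ℝ (fderiv ℝ D.ρ) :=
    (D.hL.smooth.fderiv_right (m := ∞) (by simp)).differentiable (by simp)
  have hg2 : Differentiable ℝ (fderiv ℝ g) :=
    (hgs.fderiv_right (m := ∞) (by simp)).differentiable (by simp)
  -- the derivative of `g` near `z`
  have hU : D.UL ∈ 𝓝 z := D.hL.isOpen.mem_nhds (D.hL.sub hz)
  have hnear : ∀ u : E × E, (fun x => fderiv ℝ g x u) =ᶠ[𝓝 z]
      fun x => inner ℝ (D.ρ x).2 ((fderiv ℝ D.ρ x u).1) := by
    intro u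
    filter_upwards [hU] with x hx
    have h0 : D.ρ x ∈ D.L := D.hL.maps x hx
    -- the derivative of the retraction maps to the tangent space at the image
    have h1 : fderiv ℝ D.ρ x u ∈ Tn D.ρ (D.ρ x) := by
      have h2 : HasFDerivAt (fun y => D.ρ (D.ρ y)) ((fderiv ℝ D.ρ (D.ρ x)).comp (fderiv ℝ D.ρ x)) x :=
        (hρd (D.ρ x)).comp x (hρd x)
      have h3 : (fun y => D.ρ (D.ρ y)) =ᶠ[𝓝 x] D.ρ := by
        filter_upwards [D.hL.isOpen.mem_nhds hx] with y hy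
        exact D.hL.fix _ (D.hL.maps y hy)
      have h4 := h2.unique ((hρd x).congr_of_eventuallyEq h3)
      exact congrArg (fun C => C u) h4
    rw [hg1]
    exact D.exact _ h0 _ h1
  have hsecond : ∀ u w : E × E, fderiv ℝ (fderiv ℝ g) z w u =
      inner ℝ (fderiv ℝ D.ρ z w).2 (fderiv ℝ D.ρ z u).1 +
        inner ℝ z.2 (fderiv ℝ (fderiv ℝ D.ρ) z w u).1 := by
    intro u w
    have h1 : HasFDerivAt (fun x => fderiv ℝ g x u)
        ((ContinuousLinearMap.apply ℝ ℝ u).comp (fderiv ℝ (fderiv ℝ g) z)) z :=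
      (ContinuousLinearMap.apply ℝ ℝ u).hasFDerivAt.comp z (hg2 z).hasFDerivAt
    have h2 : HasFDerivAt (fun x => (D.ρ x).2)
        ((ContinuousLinearMap.snd ℝ E E).comp (fderiv ℝ D.ρ z)) z :=
      hasFDerivAt_snd.comp z (hρd z)
    have h3 : HasFDerivAt (fun x => (fderiv ℝ D.ρ x u).1)
        ((ContinuousLinearMap.fst ℝ E E).comp
          ((ContinuousLinearMap.apply ℝ (E × E) u).comp (fderiv ℝ (fderiv ℝ D.ρ) z))) z :=
      hasFDerivAt_fst.comp z
        ((ContinuousLinearMap.apply ℝ (E × E) u).hasFDerivAt.comp z (hρ2 z).hasFDerivAt)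
    have h4 := h2.inner ℝ h3
    have h5 := h1.unique (h4.congr_of_eventuallyEq (hnear u))
    have h6 := congrArg (fun C => C w) h5
    simp only [ContinuousLinearMap.comp_apply, ContinuousLinearMap.apply_apply,
      ContinuousLinearMap.prod_apply, fderivInnerCLM_apply, ContinuousLinearMap.coe_snd',
      ContinuousLinearMap.coe_fst', D.hL.fix z hz] at h6
    rw [h6]
    ring
  have hsym : ∀ u w : E × E, fderiv ℝ (fderiv ℝ g) z w u = fderiv ℝ (fderiv ℝ g) z u w := by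
    intro u w
    have := (hgs.contDiffAt (x := z)).isSymmSndFDerivAt (by simpa using ENat.LEInfty.out)
    exact this w u
  have hsymρ : ∀ u w : E × E, fderiv ℝ (fderiv ℝ D.ρ) z w u = fderiv ℝ (fderiv ℝ D.ρ) z u w := by
    intro u w
    have := (D.hL.smooth.contDiffAt (x := z)).isSymmSndFDerivAt (by simpa using ENat.LEInfty.out)
    exact this w u
  have h7 := hsecond w v
  have h8 := hsecond v w
  rw [hsym, h8, hsymρ] at h7
  have h9 := add_right_cancel h7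
  rw [mem_Tn.1 hv, mem_Tn.1 hw] at h9
  exact h9.symm

/-- `v` is the tangent vector of `L` at `z` with `v.1 = u.1 X` and `dh v = u.2` -/
def Lf (z : E × E) (u : ℝ × ℝ) (v : E × E) : Prop :=
  v ∈ Tn D.ρ z ∧ v.1 = u.1 • D.X z.1 ∧ fderiv ℝ D.h z v = u.2

variable {D}

theorem Lf.smul {z : E × E} {u : ℝ × ℝ} {v : E × E} (h : D.Lf z u v) (c : ℝ) :
    D.Lf z (c • u) (c • v) := by
  obtain ⟨h1, h2, h3⟩ := h
  refine ⟨Submodule.smul_mem _ c h1, ?_, ?_⟩
  · rw [Prod.smul_fst, h2, Prod.smul_fst, smul_smul, smul_eq_mul]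
  · rw [map_smul, h3, Prod.smul_snd]

theorem Lf.sub {z : E × E} {u u' : ℝ × ℝ} {v v' : E × E} (h : D.Lf z u v) (h' : D.Lf z u' v') :
    D.Lf z (u - u') (v - v') := by
  obtain ⟨h1, h2, h3⟩ := h
  obtain ⟨h1', h2', h3'⟩ := h'
  refine ⟨Submodule.sub_mem _ h1 h1', ?_, ?_⟩
  · rw [Prod.fst_sub, h2, h2', Prod.fst_sub, sub_smul]
  · rw [map_sub, h3, h3', Prod.snd_sub]

theorem Lf.zero {z : E × E} (hz : z ∈ D.L) {v : E × E} (h : D.Lf z 0 v) : v = 0 := by
  obtain ⟨h1, h2, h3⟩ := h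
  have h4 : v.1 = 0 := by simpa using h2
  refine D.imm z hz v h1 h4 ?_
  rw [D.dh_apply, h4] at h3
  simpa using h3

theorem Lf.unique {z : E × E} (hz : z ∈ D.L) {u : ℝ × ℝ} {v v' : E × E} (h : D.Lf z u v)
    (h' : D.Lf z u v') : v = v' := by
  have := h.sub h'
  rw [sub_self] at this
  exact sub_eq_zero.1 (this.zero hz)

theorem Lf.det {z : E × E} (hz : z ∈ D.L) {u u' : ℝ × ℝ} {v v' : E × E} (h : D.Lf z u v)
    (h' : D.Lf z u' v') : u.1 * u'.2 = u.2 * u'.1 := by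
  obtain ⟨h1, h2, h3⟩ := h
  obtain ⟨h1', h2', h3'⟩ := h'
  have h4 := D.isotropic hz h1 h1'
  rw [h2, h2', inner_smul_right, inner_smul_right] at h4
  rw [D.dh_apply, h2, map_smul, inner_smul_right] at h3
  rw [D.dh_apply, h2', map_smul, inner_smul_right] at h3'
  rw [← h3, ← h3']
  linear_combination -h4

theorem Lf.prop {z : E × E} (hz : z ∈ D.L) {u u' : ℝ × ℝ} {v v' : E × E} (h : D.Lf z u v)
    (h' : D.Lf z u' v') (hu : u.1 ^ 2 + u.2 ^ 2 = 1) : ∃ c : ℝ, u' = c • u ∧ v' = c • v := by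
  have h1 := h.det hz h'
  have h2 : u' = (u.1 * u'.1 + u.2 * u'.2) • u := by
    ext
    · simp only [Prod.smul_fst, smul_eq_mul]
      linear_combination (-u'.1) * hu - u.2 * h1
    · simp only [Prod.smul_snd, smul_eq_mul]
      linear_combination (-u'.2) * hu + u.1 * h1
  refine ⟨_, h2, ?_⟩
  have h3 := h.smul (u.1 * u'.1 + u.2 * u'.2)
  rw [← h2] at h3
  exact h'.unique hz h3

variable (D)

theorem Lf_exists {z : E × E} (hz : z ∈ D.L) : ∃ u v, D.Lf z u v ∧ u.1 ^ 2 + u.2 ^ 2 = 1 := by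
  -- a linear map with a kernel
  have hq := D.sub z hz
  let B : (Tn D.ρ z × (ℝ × ℝ)) →ₗ[ℝ] (Tn D.r z.1 × ℝ) :=
    { toFun := fun x => (⟨x.1.1.1 - x.2.1 • D.X z.1,
          Submodule.sub_mem _ (D.tan_fst hz x.1.2) (Submodule.smul_mem _ _ (D.tX _ hq))⟩,
          fderiv ℝ D.h z x.1.1 - x.2.2)
      map_add' := by
        intro x y
        ext
        · simp only [Prod.fst_add, Prod.snd_add, Submodule.coe_add, add_smul]
          abel
        · simp only [Prod.fst_add, Prod.snd_add, Submodule.coe_add, map_add]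
          ring
      map_smul' := by
        intro c x
        ext
        · simp only [Prod.smul_fst, Prod.smul_snd, Submodule.coe_smul, smul_eq_mul, RingHom.id_apply,
            smul_sub, mul_smul]
        · simp only [Prod.smul_fst, Prod.smul_snd, Submodule.coe_smul, map_smul, smul_eq_mul,
            RingHom.id_apply]
          ring }
  have hfr : Module.finrank ℝ (Tn D.r z.1 × ℝ) < Module.finrank ℝ (Tn D.ρ z × (ℝ × ℝ)) := by
    rw [Module.finrank_prod, Module.finrank_prod, Module.finrank_prod, D.dQ _ hq, D.dL _ hz,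
      Module.finrank_self]
    omega
  have hker := LinearMap.ker_ne_bot_of_finrank_lt (f := B) hfr
  obtain ⟨⟨v, u⟩, hx, hne⟩ := (Submodule.ne_bot_iff _).1 hker
  have h1 : B (v, u) = 0 := hx
  have h2 : v.1.1 - u.1 • D.X z.1 = 0 := congrArg (fun y => (y.1 : E)) h1
  have h3 : fderiv ℝ D.h z v.1 - u.2 = 0 := congrArg (fun y => y.2) h1
  have hLf : D.Lf z u v.1 := ⟨v.2, sub_eq_zero.1 h2, sub_eq_zero.1 h3⟩
  have hu : u ≠ 0 := by
    rintro rfl
    apply hne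
    have := hLf.zero hz
    ext <;> simp [this]
  set s : ℝ := u.1 ^ 2 + u.2 ^ 2 with hs
  have hspos : 0 < s := by
    have : u.1 ≠ 0 ∨ u.2 ≠ 0 := by
      by_contra hcon
      push Not at hcon
      exact hu (Prod.ext hcon.1 hcon.2)
    rcases this with h | h
    · have := sq_pos_of_ne_zero h
      have := sq_nonneg u.2
      linarith
    · have := sq_pos_of_ne_zero h
      have := sq_nonneg u.1
      linarith
  refine ⟨(Real.sqrt s)⁻¹ • u, (Real.sqrt s)⁻¹ • v.1, hLf.smul _, ?_⟩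
  simp only [Prod.smul_fst, Prod.smul_snd, smul_eq_mul, mul_pow]
  rw [← mul_add, ← hs, inv_pow, Real.sq_sqrt hspos.le, inv_mul_cancel₀ hspos.ne']

end Setup

end Vale.Agent.P220.R2.H57
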