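import Vale.Agent.P220.R2.H57.Basic

/-!
Sets with smooth neighbourhood retractions, flows, left inverses of families of embeddings.
-/

open Set Filter Topology
open scoped ContDiff Manifold

set_option linter.unusedSectionVars false

namespace Vale.Agent.P220.R2.H57

section Ret

variable {F : Type} [NormedAddCommGroup F] [NormedSpace ℝ F] [FiniteDimensional ℝ F]

/-- `r` is a smooth map that retracts the open set `U` onto the closed set `S`. -/
structure IsRet (S U : Set F) (r : F → F) : Prop where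
  isClosed : IsClosed S
  isOpen : IsOpen U
  sub : S ⊆ U
  smooth : ContDiff ℝ ∞ r
  maps : ∀ x ∈ U, r x ∈ S
  fix : ∀ x ∈ S, r x = x

/-- the vectors fixed by the derivative of `r` -/
def Tn (r : F → F) (x : F) : Submodule ℝ F where
  carrier := {v | fderiv ℝ r x v = v}
  add_mem' := by
    intro a b ha hb
    simp only [mem_ofPred_eq] at ha hb ⊢
    rw [map_add, ha, hb]
  zero_mem' := by simp
  smul_mem' := by
    intro c v hv
    simp only [mem_ofPred_eq] at hv ⊢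
    rw [map_smul, hv]

theorem mem_Tn {r : F → F} {x v : F} : v ∈ Tn r x ↔ fderiv ℝ r x v = v := Iff.rfl

variable {S U : Set F} {r : F → F}

theorem IsRet.hasFDerivAt (hr : IsRet S U r) (x : F) : HasFDerivAt r (fderiv ℝ r x) x :=
  (hr.smooth.differentiable (by simp) x).hasFDerivAt

theorem IsRet.fderiv_fderiv (hr : IsRet S U r) {x : F} (hx : x ∈ S) (v : F) :
    fderiv ℝ r x (fderiv ℝ r x v) = fderiv ℝ r x v := by
  have h1 : HasFDerivAt (fun y => r (r y)) ((fderiv ℝ r (r x)).comp (fderiv ℝ r x)) x :=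
    (hr.hasFDerivAt (r x)).comp x (hr.hasFDerivAt x)
  have h2 : (fun y => r (r y)) =ᶠ[𝓝 x] r := by
    filter_upwards [hr.isOpen.mem_nhds (hr.sub hx)] with y hy
    exact hr.fix _ (hr.maps y hy)
  have h3 := h1.unique ((hr.hasFDerivAt x).congr_of_eventuallyEq h2)
  rw [hr.fix x hx] at h3
  exact congrArg (fun C => C v) h3

theorem IsRet.fderiv_mem (hr : IsRet S U r) {x : F} (hx : x ∈ S) (v : F) :
    fderiv ℝ r x v ∈ Tn r x := hr.fderiv_fderiv hx v

/-- derivatives of curves in `S` are tangent -/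
theorem IsRet.curve_tangent (hr : IsRet S U r) {c : ℝ → F} {t : ℝ} {v : F} (hc : ∀ᶠ s in 𝓝 t, c s ∈ S)
    (h : HasDerivAt c v t) : v ∈ Tn r (c t) := by
  have h1 : HasDerivAt (fun s => r (c s)) (fderiv ℝ r (c t) v) t :=
    (hr.hasFDerivAt (c t)).comp_hasDerivAt t h
  have h2 : (fun s => r (c s)) =ᶠ[𝓝 t] c := by
    filter_upwards [hc] with s hs
    exact hr.fix _ hs
  exact h1.unique (h.congr_of_eventuallyEq h2)

theorem IsRet.mem_Tan (hr : IsRet S U r) {x : F} (hx : x ∈ S) {v : F} :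
    v ∈ Tan S x ↔ v ∈ Tn r x := by
  constructor
  · rintro ⟨c, hc, hcS, h0, hv⟩
    have h1 : HasDerivAt c v 0 := by
      rw [← hv]
      exact (hc.differentiable (by simp) 0).hasDerivAt
    have := hr.curve_tangent (Eventually.of_forall hcS) h1
    rwa [h0] at this
  · intro hv
    obtain ⟨δ, hδ, hball⟩ := Metric.isOpen_iff.1 hr.isOpen x (hr.sub hx)
    set ε : ℝ := δ / (‖v‖ + 1) with hε
    have hv1 : 0 < ‖v‖ + 1 := by positivity
    have hεpos : 0 < ε := by positivity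
    set k : ℝ → F := fun t => x + (ε * Real.sin (t / ε)) • v with hk
    have hkU : ∀ t, k t ∈ U := by
      intro t
      apply hball
      rw [mem_ball_iff_norm]
      simp only [hk, add_sub_cancel_left]
      rw [norm_smul, norm_mul, Real.norm_eq_abs, Real.norm_eq_abs, abs_of_pos hεpos]
      have h1 : |Real.sin (t / ε)| ≤ 1 := Real.abs_sin_le_one _
      calc ε * |Real.sin (t / ε)| * ‖v‖ ≤ ε * 1 * ‖v‖ := by gcongr
        _ = ε * ‖v‖ := by ring
        _ < ε * (‖v‖ + 1) := by nlinarith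
        _ = δ := by rw [hε]; field_simp
    have hks : ContDiff ℝ ∞ k := by
      have h1 : ContDiff ℝ ∞ (fun t : ℝ => ε * Real.sin (t / ε)) :=
        contDiff_const.mul (Real.contDiff_sin.comp (contDiff_id.div_const ε))
      exact contDiff_const.add (h1.smul contDiff_const)
    have hkd : HasDerivAt k v 0 := by
      have h1 : HasDerivAt (fun t : ℝ => t / ε) (1 / ε) 0 := (hasDerivAt_id 0).div_const ε
      have h2 := (h1.sin).const_mul ε
      have h3 : ε * (Real.cos (0 / ε) * (1 / ε)) = 1 := by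
        simp
        field_simp
      rw [h3] at h2
      have h4 := (h2.smul_const v).const_add x
      simpa [hk] using h4
    have hk0 : k 0 = x := by simp [hk]
    refine ⟨fun t => r (k t), hr.smooth.comp hks, fun t => hr.maps _ (hkU t), ?_, ?_⟩
    · simp only [hk0]
      exact hr.fix x hx
    · have h5 : HasDerivAt (fun t => r (k t)) (fderiv ℝ r (k 0) v) 0 :=
        (hr.hasFDerivAt (k 0)).comp_hasDerivAt 0 hkd
      rw [h5.deriv, hk0]
      exact hv

/-- A Gronwall estimate in both directions of time. -/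
theorem zero_of_bound {G : Type} [NormedAddCommGroup G] [NormedSpace ℝ G] {e e' : ℝ → G} {K t₀ δ : ℝ}
    (hd : ∀ t ∈ Icc (t₀ - δ) (t₀ + δ), HasDerivAt e (e' t) t) (h0 : e t₀ = 0)
    (hb : ∀ t ∈ Icc (t₀ - δ) (t₀ + δ), ‖e' t‖ ≤ K * ‖e t‖) :
    ∀ t ∈ Icc (t₀ - δ) (t₀ + δ), e t = 0 := by
  intro t ht
  rcases le_total t₀ t with h | h
  · refine eq_zero_of_abs_deriv_le_mul_abs_self_of_eq_zero_right (f := e) (f' := e') (K := K)
      (a := t₀) (b := t) ?_ ?_ h0 ?_ t ⟨h, le_refl t⟩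
    · intro s hs
      exact (hd s ⟨by linarith [hs.1, ht.1, ht.2], by linarith [hs.2, ht.2]⟩).continuousAt.continuousWithinAt
    · intro s hs
      exact (hd s ⟨by linarith [hs.1, ht.1, ht.2], by linarith [hs.2, ht.2]⟩).hasDerivWithinAt
    · intro s hs
      exact hb s ⟨by linarith [hs.1, ht.1, ht.2], by linarith [hs.2, ht.2]⟩
  · have h1 : ∀ s ∈ Icc (t₀) (2 * t₀ - t), 2 * t₀ - s ∈ Icc (t₀ - δ) (t₀ + δ) := by
      intro s hs
      constructor
      · linarith [hs.2, ht.1]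
      · linarith [hs.1, ht.1, ht.2]
    have key := eq_zero_of_abs_deriv_le_mul_abs_self_of_eq_zero_right (f := fun s => e (2 * t₀ - s))
      (f' := fun s => - e' (2 * t₀ - s)) (K := K) (a := t₀) (b := 2 * t₀ - t) ?_ ?_ ?_ ?_
      (2 * t₀ - t) ⟨by linarith, le_refl _⟩
    · simpa using key
    · intro s hs
      have h2 : HasDerivAt (fun s => e (2 * t₀ - s)) (-(e' (2 * t₀ - s))) s := by
        have h3 : HasDerivAt (fun s : ℝ => 2 * t₀ - s) (-1) s := (hasDerivAt_id s).const_sub _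
        have := (hd _ (h1 s hs)).scomp s h3
        simpa [Function.comp_def] using this
      exact h2.continuousAt.continuousWithinAt
    · intro s hs
      have h2 : HasDerivAt (fun s => e (2 * t₀ - s)) (-(e' (2 * t₀ - s))) s := by
        have h3 : HasDerivAt (fun s : ℝ => 2 * t₀ - s) (-1) s := (hasDerivAt_id s).const_sub _
        have := (hd _ (h1 s (Ico_subset_Icc_self hs))).scomp s h3
        simpa [Function.comp_def] using this
      exact h2.hasDerivWithinAt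
    · simp [two_mul, h0]
    · intro s hs
      rw [norm_neg]
      exact hb _ (h1 s (Ico_subset_Icc_self hs))

/-- Solutions of a differential equation with tangent right hand side stay in `S`. -/
theorem IsRet.curve_mem (hr : IsRet S U r) {Y : F → F} (hY : ContDiff ℝ ∞ Y)
    (hT : ∀ x ∈ S, Y x ∈ Tn r x) {c : ℝ → F} (hc : ∀ t, HasDerivAt c (Y (c t)) t) {t₀ : ℝ}
    (h0 : c t₀ ∈ S) : ∀ t, c t ∈ S := by
  set G : F → F := fun x => Y x - fderiv ℝ r x (Y x) with hG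
  have hGs : ContDiff ℝ ∞ G := hY.sub ((hr.smooth.fderiv_right (m := ∞) (by simp)).clm_apply hY)
  have hG0 : ∀ x ∈ S, G x = 0 := fun x hx => by
    simp only [hG]
    rw [hT x hx, sub_self]
  have hcc : Continuous c := continuous_iff_continuousAt.2 fun t => (hc t).continuousAt
  have hcl : IsClosed {t | c t ∈ S} := hr.isClosed.preimage hcc
  have hop : IsOpen {t | c t ∈ S} := by
    rw [isOpen_iff_mem_nhds]
    intro t₁ ht₁
    obtain ⟨K, s, hs, hLip⟩ :=
      ((hGs.contDiffAt (x := c t₁)).of_le (show (1 : WithTop ℕ∞) ≤ ∞ by simp)).exists_lipschitzOnWith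
    have h1 : ∀ᶠ t in 𝓝 t₁, c t ∈ U ∧ c t ∈ s ∧ r (c t) ∈ s := by
      refine (hcc.continuousAt.eventually_mem (hr.isOpen.mem_nhds (hr.sub ht₁))).and
        ((hcc.continuousAt.eventually_mem hs).and ?_)
      have h2 : ContinuousAt (fun t => r (c t)) t₁ := (hr.smooth.continuous.comp hcc).continuousAt
      refine h2.eventually_mem ?_
      rw [hr.fix _ ht₁]
      exact hs
    obtain ⟨δ, hδ, hδ1⟩ := Metric.eventually_nhds_iff.1 h1
    have h3 : ∀ t ∈ Icc (t₁ - δ / 2) (t₁ + δ / 2), c t ∈ U ∧ c t ∈ s ∧ r (c t) ∈ s := by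
      intro t ht
      apply hδ1
      rw [Real.dist_eq, abs_lt]
      constructor <;> linarith [ht.1, ht.2]
    have h4 := zero_of_bound (e := fun t => c t - r (c t)) (e' := fun t => G (c t)) (K := K)
      (t₀ := t₁) (δ := δ / 2) ?_ ?_ ?_
    · filter_upwards [Icc_mem_nhds (show t₁ - δ / 2 < t₁ by linarith)
        (show t₁ < t₁ + δ / 2 by linarith)] with t ht
      have h5 := sub_eq_zero.1 (h4 t ht)
      change c t ∈ S
      rw [h5]
      exact hr.maps _ (h3 t ht).1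
    · intro t ht
      exact (hc t).sub ((hr.hasFDerivAt (c t)).comp_hasDerivAt t (hc t))
    · rw [hr.fix _ ht₁, sub_self]
    · intro t ht
      obtain ⟨h5, h6, h7⟩ := h3 t ht
      have h8 := hLip.dist_le_mul _ h6 _ h7
      rw [hG0 _ (hr.maps _ h5), dist_zero_right, dist_eq_norm] at h8
      exact h8
  have hclop : {t | c t ∈ S} = univ := IsClopen.eq_univ ⟨hcl, hop⟩ ⟨t₀, h0⟩
  intro t
  have : t ∈ {t | c t ∈ S} := by rw [hclop]; trivial
  exact this

end Ret

section Flow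

variable {F : Type} [NormedAddCommGroup F] [NormedSpace ℝ F] [FiniteDimensional ℝ F]

/-- `Φ` is the smooth global flow of the vector field `Y`. -/
structure IsFlow (Y : F → F) (Φ : ℝ → F → F) : Prop where
  smooth : ContDiff ℝ ∞ (fun q : ℝ × F => Φ q.1 q.2)
  zero : ∀ z, Φ 0 z = z
  deriv : ∀ t z, HasDerivAt (fun s => Φ s z) (Y (Φ t z)) t
  uniq : ∀ c : ℝ → F, (∀ t, HasDerivAt c (Y (c t)) t) → ∀ t, c t = Φ t (c 0)

theorem exists_flow_bounded {Y : F → F} (hY : ContDiff ℝ ∞ Y) {C : ℝ} (hC : ∀ x, ‖Y x‖ ≤ C) :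
    ∃ Φ : ℝ → F → F, IsFlow Y Φ := by
  obtain ⟨Φ, h1, h2, h3, h4⟩ := P265.H185.exists_global_flow Y hY
    (fun z => P265.H185.exists_curve_of_bounded (hY.of_le (by simp)) hC z)
  exact ⟨Φ, h1, h2, h3, h4⟩

theorem exists_flow_compact {Y : F → F} (hY : ContDiff ℝ ∞ Y) (hc : HasCompactSupport Y) :
    ∃ Φ : ℝ → F → F, IsFlow Y Φ := by
  obtain ⟨C, hC⟩ := hc.exists_bound_of_continuous hY.continuous
  exact exists_flow_bounded hY hC

variable {Y : F → F} {Φ : ℝ → F → F}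

theorem IsFlow.add (h : IsFlow Y Φ) (s t : ℝ) (z : F) : Φ (s + t) z = Φ s (Φ t z) := by
  have h1 := h.uniq (fun s => Φ (s + t) z) (fun s => by
    have h2 : HasDerivAt (fun s : ℝ => s + t) 1 s := (hasDerivAt_id s).add_const t
    have := (h.deriv (s + t) z).scomp s h2
    simpa [Function.comp_def] using this) s
  simpa using h1

theorem IsFlow.neg_left (h : IsFlow Y Φ) (t : ℝ) (z : F) : Φ (-t) (Φ t z) = z := by
  rw [← h.add, neg_add_cancel, h.zero]

theorem IsFlow.neg_right (h : IsFlow Y Φ) (t : ℝ) (z : F) : Φ t (Φ (-t) z) = z := by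
  rw [← h.add, add_neg_cancel, h.zero]

theorem IsFlow.smooth_map (h : IsFlow Y Φ) (t : ℝ) : ContDiff ℝ ∞ (Φ t) :=
  h.smooth.comp (contDiff_const.prodMk contDiff_id)

theorem IsFlow.continuous (h : IsFlow Y Φ) : Continuous (fun q : ℝ × F => Φ q.1 q.2) :=
  h.smooth.continuous

theorem IsFlow.hasFDerivAt (h : IsFlow Y Φ) (t : ℝ) (z : F) :
    HasFDerivAt (Φ t) (fderiv ℝ (Φ t) z) z :=
  ((h.smooth_map t).differentiable (by simp) z).hasFDerivAt

/-- the flow maps its vector field to itself -/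
theorem IsFlow.fderiv_vec (h : IsFlow Y Φ) (t : ℝ) (z : F) :
    fderiv ℝ (Φ t) z (Y z) = Y (Φ t z) := by
  have h1 : HasDerivAt (fun s => Φ t (Φ s z)) (fderiv ℝ (Φ t) z (Y z)) 0 := by
    have h2 := h.deriv 0 z
    have h3 : HasFDerivAt (Φ t) (fderiv ℝ (Φ t) (Φ 0 z)) (Φ 0 z) := h.hasFDerivAt t _
    have h4 := h3.comp_hasDerivAt (0 : ℝ) h2
    simp only [h.zero] at h4
    exact h4
  have h2 : HasDerivAt (fun s => Φ t (Φ s z)) (Y (Φ t z)) 0 := by
    have h3 : (fun s => Φ t (Φ s z)) = fun s => Φ (s + t) z := by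
      funext s
      rw [← h.add, add_comm]
    rw [h3]
    have h2 : HasDerivAt (fun s : ℝ => s + t) 1 0 := (hasDerivAt_id 0).add_const t
    have h5 : HasDerivAt (fun s => Φ s z) (Y (Φ (0 + t) z)) (0 + t) := h.deriv (0 + t) z
    have := h5.scomp (0 : ℝ) h2
    simpa [Function.comp_def] using this
  exact h1.unique h2

/-- the derivative of a flow map is injective -/
theorem IsFlow.fderiv_injective (h : IsFlow Y Φ) (t : ℝ) (z v : F)
    (hv : fderiv ℝ (Φ t) z v = 0) : v = 0 := by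
  have h1 : HasFDerivAt (fun y => Φ (-t) (Φ t y)) ((fderiv ℝ (Φ (-t)) (Φ t z)).comp
      (fderiv ℝ (Φ t) z)) z := (h.hasFDerivAt (-t) _).comp z (h.hasFDerivAt t z)
  have h2 : (fun y => Φ (-t) (Φ t y)) = id := by
    funext y
    exact h.neg_left t y
  rw [h2] at h1
  have h3 := congrArg (fun C => C v) (h1.unique (hasFDerivAt_id z))
  simpa [hv] using h3.symm

theorem exists_cutoff (R : ℝ) : ∃ χ : F → ℝ, ContDiff ℝ ∞ χ ∧ HasCompactSupport χ ∧
    ∀ x, ‖x‖ ≤ R → χ x = 1 := by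
  let f : ContDiffBump (0 : F) := ⟨|R| + 1, |R| + 2, by positivity, by linarith⟩
  refine ⟨f, f.contDiff, f.hasCompactSupport, fun x hx => ?_⟩
  apply f.one_of_mem_closedBall
  rw [mem_closedBall_zero_iff]
  change ‖x‖ ≤ |R| + 1
  linarith [le_abs_self R]

variable {S U : Set F} {r : F → F}

theorem IsRet.flow_mem (hr : IsRet S U r) (hY : ContDiff ℝ ∞ Y) (h : IsFlow Y Φ)
    (hT : ∀ x ∈ S, Y x ∈ Tn r x) {z : F} (hz : z ∈ S) (t : ℝ) : Φ t z ∈ S :=
  hr.curve_mem hY hT (c := fun s => Φ s z) (fun s => h.deriv s z) (t₀ := 0)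
    (by simpa [h.zero] using hz) t

/-- the flow preserves tangent vectors -/
theorem IsRet.flow_tangent (hr : IsRet S U r) (hY : ContDiff ℝ ∞ Y) (h : IsFlow Y Φ)
    (hT : ∀ x ∈ S, Y x ∈ Tn r x) {z : F} (hz : z ∈ S) (t : ℝ) {v : F} (hv : v ∈ Tn r z) :
    fderiv ℝ (Φ t) z v ∈ Tn r (Φ t z) := by
  rw [← hr.mem_Tan hz] at hv
  obtain ⟨c, hc, hcS, h0, hv⟩ := hv
  have h1 : HasDerivAt c v 0 := by
    rw [← hv]
    exact (hc.differentiable (by simp) 0).hasDerivAt
  have h2 : HasDerivAt (fun s => Φ t (c s)) (fderiv ℝ (Φ t) (c 0) v) 0 :=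
    (h.hasFDerivAt t (c 0)).comp_hasDerivAt 0 h1
  have h3 := hr.curve_tangent (Eventually.of_forall fun s => hr.flow_mem hY h hT (hcS s) t) h2
  simpa [h0] using h3

end Flow

section LeftInv

variable {P F G : Type} [NormedAddCommGroup P] [NormedSpace ℝ P] [FiniteDimensional ℝ P]
  [NormedAddCommGroup F] [NormedSpace ℝ F] [FiniteDimensional ℝ F]
  [NormedAddCommGroup G] [NormedSpace ℝ G] [FiniteDimensional ℝ G]
  {L U : Set F} {ρ : F → F}

/-- nearness of preimages, for an injective family on a compact set -/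
theorem near_of_inj (hL : IsCompact L) {Ψ : P × F → G} (hΨ : Continuous Ψ)
    (hinj : ∀ s, ∀ z ∈ L, ∀ z' ∈ L, Ψ (s, z) = Ψ (s, z') → z = z') {s₀ : P} {z₀ : F} (hz₀ : z₀ ∈ L)
    {N : Set (P × F)} (hN : N ∈ 𝓝 (s₀, z₀)) :
    ∀ᶠ w in 𝓝 (s₀, Ψ (s₀, z₀)), ∀ z ∈ L, Ψ (w.1, z) = w.2 → (w.1, z) ∈ N := by
  by_contra hcon
  have h1 : ∃ᶠ w in 𝓝 (s₀, Ψ (s₀, z₀)), ∃ z ∈ L, Ψ (w.1, z) = w.2 ∧ (w.1, z) ∉ N := by
    rw [not_eventually] at hcon
    refine hcon.mono fun w hw => ?_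
    push Not at hw
    exact hw
  obtain ⟨w, hw, hw1⟩ := exists_seq_forall_of_frequently h1
  choose z hz1 hz2 hz3 using hw1
  obtain ⟨a, ha, φ, hφ, hlim⟩ := hL.tendsto_subseq hz1
  have hw' := hw.comp hφ.tendsto_atTop
  have h2 : Tendsto (fun n => (w (φ n)).1) atTop (𝓝 s₀) := (continuous_fst.tendsto _).comp hw'
  have h3 : Tendsto (fun n => (w (φ n)).2) atTop (𝓝 (Ψ (s₀, z₀))) :=
    (continuous_snd.tendsto _).comp hw'
  have h4 : Tendsto (fun n => ((w (φ n)).1, z (φ n))) atTop (𝓝 (s₀, a)) := h2.prodMk_nhds hlim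
  have h5 : Tendsto (fun n => Ψ ((w (φ n)).1, z (φ n))) atTop (𝓝 (Ψ (s₀, a))) :=
    (hΨ.tendsto _).comp h4
  have h6 : Ψ (s₀, a) = Ψ (s₀, z₀) := by
    refine tendsto_nhds_unique h5 ?_
    refine h3.congr fun n => ?_
    rw [hz2]
  have h7 := hinj s₀ a ha z₀ hz₀ h6
  rw [h7] at h4
  obtain ⟨n, hn⟩ := (h4.eventually_mem hN).exists
  exact hz3 _ hn

theorem isClosed_family (hL : IsCompact L) {Ψ : P × F → G} (hΨ : Continuous Ψ) :
    IsClosed {w : P × G | ∃ z ∈ L, Ψ (w.1, z) = w.2} := by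
  apply IsSeqClosed.isClosed
  intro w w₀ hw hlim
  choose z hz1 hz2 using hw
  obtain ⟨a, ha, φ, hφ, hlim2⟩ := hL.tendsto_subseq hz1
  have hw' := hlim.comp hφ.tendsto_atTop
  have h2 : Tendsto (fun n => (w (φ n)).1) atTop (𝓝 w₀.1) := (continuous_fst.tendsto _).comp hw'
  have h3 : Tendsto (fun n => (w (φ n)).2) atTop (𝓝 w₀.2) := (continuous_snd.tendsto _).comp hw'
  have h4 : Tendsto (fun n => ((w (φ n)).1, z (φ n))) atTop (𝓝 (w₀.1, a)) := h2.prodMk_nhds hlim2
  have h5 : Tendsto (fun n => Ψ ((w (φ n)).1, z (φ n))) atTop (𝓝 (Ψ (w₀.1, a))) :=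
    (hΨ.tendsto _).comp h4
  refine ⟨a, ha, tendsto_nhds_unique h5 ?_⟩
  refine h3.congr fun n => ?_
  rw [hz2]

/-- Families of embeddings have smooth families of left inverses. -/
theorem IsRet.exists_leftInv (hρ : IsRet L U ρ) (hL : IsCompact L) {Ψ : P × F → G}
    (hΨ : ContDiff ℝ ∞ Ψ)
    (hinj : ∀ s, ∀ z ∈ L, ∀ z' ∈ L, Ψ (s, z) = Ψ (s, z') → z = z')
    (himm : ∀ s, ∀ z ∈ L, ∀ v ∈ Tn ρ z, fderiv ℝ Ψ (s, z) (0, v) = 0 → v = 0) :
    ∃ μ : P × G → F, ContDiff ℝ ∞ μ ∧ ∀ s, ∀ z ∈ L, μ (s, Ψ (s, z)) = z := by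
  classical
  set S : Set (P × G) := {w | ∃ z ∈ L, Ψ (w.1, z) = w.2} with hS
  have hScl : IsClosed S := isClosed_family hL hΨ.continuous
  have hex : ∀ w : P × G, ∃ z, w ∈ S → z ∈ L ∧ Ψ (w.1, z) = w.2 := by
    intro w
    by_cases hw : w ∈ S
    · obtain ⟨z, hz⟩ := hw
      exact ⟨z, fun _ => hz⟩
    · exact ⟨0, fun h => absurd h hw⟩
  choose g hg using hex
  obtain ⟨μ, hμ, hμg⟩ := glue hScl g (by
    rintro ⟨s₀, y₀⟩ hw
    obtain ⟨hz₀, hΨz₀⟩ := hg _ hw
    set z₀ := g (s₀, y₀) with hz₀def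
    set f : P × F → (P × G) × F := fun x => ((x.1, Ψ x), x.2 - ρ x.2) with hf
    have hfs : ContDiff ℝ ∞ f := (contDiff_fst.prodMk hΨ).prodMk
      (contDiff_snd.sub (hρ.smooth.comp contDiff_snd))
    have hfd : HasFDerivAt f (((ContinuousLinearMap.fst ℝ P F).prod (fderiv ℝ Ψ (s₀, z₀))).prod
        (ContinuousLinearMap.snd ℝ P F -
          (fderiv ℝ ρ z₀).comp (ContinuousLinearMap.snd ℝ P F))) (s₀, z₀) := by
      refine HasFDerivAt.prodMk (HasFDerivAt.prodMk hasFDerivAt_fst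
        (hΨ.differentiable (by simp) _).hasFDerivAt) (hasFDerivAt_snd.sub ?_)
      exact (hρ.hasFDerivAt z₀).comp (s₀, z₀) hasFDerivAt_snd
    have hinj' : ∀ v, fderiv ℝ f (s₀, z₀) v = 0 → v = 0 := by
      rintro ⟨σ, v⟩ hv
      rw [hfd.fderiv] at hv
      simp only [ContinuousLinearMap.prod_apply, ContinuousLinearMap.coe_fst', sub_apply,
        ContinuousLinearMap.coe_snd', ContinuousLinearMap.comp_apply,
        Prod.mk_eq_zero] at hv
      obtain ⟨⟨hσ, h1⟩, h2⟩ := hv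
      subst hσ
      have h3 : v ∈ Tn ρ z₀ := (sub_eq_zero.1 h2).symm
      have h4 := himm s₀ z₀ hz₀ v h3 h1
      rw [h4]
      rfl
    obtain ⟨O, hO, m, hm, hmf⟩ := H57.exists_leftInv hfs hinj'
    have hf₀ : f (s₀, z₀) = ((s₀, y₀), 0) := by
      simp only [hf, hΨz₀, hρ.fix _ hz₀, sub_self]
    rw [hf₀] at hO
    have hcont : Continuous fun w : P × G => (w, (0 : F)) := by fun_prop
    have hnb : (fun w : P × G => (w, (0 : F))) ⁻¹' O ∈ 𝓝 (s₀, y₀) :=
      hcont.continuousAt.preimage_mem_nhds hO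
    have hnear := near_of_inj hL hΨ.continuous hinj hz₀ hmf
    have hΨz₀' : Ψ (s₀, z₀) = y₀ := hΨz₀
    rw [hΨz₀'] at hnear
    refine ⟨_, inter_mem hnb hnear, fun w => (m (w, 0)).2, ?_, ?_⟩
    · have h1 : ContDiffOn ℝ ∞ (fun w : P × G => m (w, 0)) ((fun w : P × G => (w, (0 : F))) ⁻¹' O) :=
        hm.comp (contDiff_id.prodMk contDiff_const).contDiffOn (fun w hw => hw)
      exact (contDiff_snd.comp_contDiffOn h1).mono fun w hw => hw.1
    · rintro ⟨s, y⟩ ⟨-, h2⟩ hS'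
      obtain ⟨hz, hΨz⟩ := hg _ hS'
      have h3 : m (f (s, g (s, y))) = (s, g (s, y)) := h2 _ hz hΨz
      have h4 : f (s, g (s, y)) = ((s, y), 0) := by
        simp only [hf, hΨz, hρ.fix _ hz, sub_self]
      rw [h4] at h3
      simp only
      rw [h3])
  refine ⟨μ, hμ, fun s z hz => ?_⟩
  have hw : (s, Ψ (s, z)) ∈ S := ⟨z, hz, rfl⟩
  rw [hμg _ hw]
  obtain ⟨h1, h2⟩ := hg _ hw
  exact hinj s _ h1 z hz h2

end LeftInv

end Vale.Agent.P220.R2.H57
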