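import Vale.Agent.P220.R2.H57.Push

/-!
The angle extends to the product of the base and the line.
-/

open Set Filter Topology
open scoped ContDiff Manifold

set_option linter.unusedSectionVars false

namespace Vale.Agent.P220.R2.H57

theorem stay {A A' : ℝ → ℝ} {R : ℝ} (hA : ∀ t, HasDerivAt A (A' t) t)
    (h : ∀ t, A t = R → 0 < A' t) {s₀ s : ℝ} (h0 : R < A s₀) (hs : s₀ ≤ s) : R < A s := by
  by_contra hcon
  have hAs : A s ≤ R := not_lt.1 hcon
  have hc : Continuous A := continuous_iff_continuousAt.2 fun t => (hA t).continuousAt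
  set S : Set ℝ := Icc s₀ s ∩ {t | A t ≤ R} with hS
  have hSc : IsCompact S := isCompact_Icc.inter_right (isClosed_le hc continuous_const)
  have hSne : S.Nonempty := ⟨s, ⟨hs, le_refl s⟩, hAs⟩
  have hmem := hSc.sInf_mem hSne
  set t := sInf S with ht
  have hlt : ∀ x, s₀ ≤ x → x < t → R < A x := by
    intro x hx hxt
    by_contra hcon
    have : x ∈ S := ⟨⟨hx, hxt.le.trans hmem.1.2⟩, not_lt.1 hcon⟩
    exact absurd (csInf_le hSc.bddBelow this) (not_le.2 hxt)
  have hst : s₀ < t := by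
    rcases eq_or_lt_of_le hmem.1.1 with h | h
    · exfalso
      have h2 : A t ≤ R := hmem.2
      rw [← h] at h2
      exact absurd h0 (not_lt.2 h2)
    · exact h
  have hev : ∀ᶠ x in 𝓝[<] t, R < A x := by
    filter_upwards [Ioo_mem_nhdsLT hst] with x hx
    exact hlt x hx.1.le hx.2
  have h3 : A t = R := by
    refine le_antisymm hmem.2 ?_
    exact ge_of_tendsto (hc.continuousAt.mono_left nhdsWithin_le_nhds) (hev.mono fun t ht => ht.le)
  have h4 : Tendsto (slope A t) (𝓝[<] t) (𝓝 (A' t)) :=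
    (hasDerivAt_iff_tendsto_slope.1 (hA t)).mono_left
      (nhdsWithin_mono _ fun t ht => ne_of_lt ht)
  have h5 : A' t ≤ 0 := by
    refine le_of_tendsto h4 ?_
    filter_upwards [hev, self_mem_nhdsWithin] with x hx hxt
    have hxt' : x < t := hxt
    rw [slope_def_field, h3]
    exact div_nonpos_of_nonneg_of_nonpos (by linarith) (by linarith)
  exact absurd (h t h3) (not_lt.2 h5)

variable {E : Type} [NormedAddCommGroup E] [InnerProductSpace ℝ E] [FiniteDimensional ℝ E]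

namespace Setup

variable {D : Setup E}

/-- A smooth angle on the product of the base and the line, for a leafwise field transverse to
`L`, vertical on walls and far away. -/
structure Fld (Λ : D.Leaf) where
  g : E × ℝ → ℝ
  hg : ContDiff ℝ ∞ g
  R : ℝ
  hR : ∀ z ∈ D.L, |D.h z| < R
  top : ∀ x : E × ℝ, R ≤ |x.2| → g x = 0
  T₀ : ℝ
  hT₀ : 0 < T₀
  wall : ∀ q ∈ D.Q, ∃ t ∈ Icc (0 : ℝ) T₀, ∀ y, g (D.φ t q, y) = 0
  angle : ∀ z ∈ D.L, 0 < (Λ.u z).1 * Real.cos (g (z.1, D.h z)) +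
    (Λ.u z).2 * Real.sin (g (z.1, D.h z))

variable (D)

theorem exists_wall_fun : ∃ δ : E → ℝ, Continuous δ ∧ (∀ x, δ x = 0 ↔ x ∈ D.N) ∧ (∀ x, 0 ≤ δ x) ∧
    ∃ T₀ > 0, ∃ ε > 0, ∀ q ∈ D.Q, ∃ t ∈ Icc (0 : ℝ) T₀, ε ≤ δ (D.φ t q) := by
  obtain ⟨δ, hδ, hδc, hδr⟩ := D.hN.isOpen_compl.exists_contDiff_support_eq (n := 0)
  have hc : Continuous δ := hδc.continuous
  have h0 : ∀ x, δ x = 0 ↔ x ∈ D.N := by
    intro x
    have h1 : x ∈ Function.support δ ↔ x ∈ D.Nᶜ := by rw [hδ]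
    rw [Function.mem_support, mem_compl_iff] at h1
    exact not_iff_not.1 h1
  have hpos : ∀ x, 0 ≤ δ x := fun x => (hδr ⟨x, rfl⟩).1
  refine ⟨δ, hc, h0, hpos, ?_⟩
  obtain ⟨T₀, hT₀, hw⟩ := D.exists_wall_time
  refine ⟨T₀, hT₀, ?_⟩
  by_contra hcon
  push Not at hcon
  have h1 : ∀ n : ℕ, ∃ q ∈ D.Q, ∀ t ∈ Icc (0 : ℝ) T₀, δ (D.φ t q) < 1 / ((n : ℝ) + 1) :=
    fun n => hcon (1 / ((n : ℝ) + 1)) (by positivity)
  choose q hq hqN using h1
  obtain ⟨a, ha, ψ, hψ, hlim⟩ := D.cQ.tendsto_subseq hq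
  obtain ⟨t, ht, htN⟩ := hw a ha
  have h2 : Tendsto (fun n => δ (D.φ t (q (ψ n)))) atTop (𝓝 (δ (D.φ t a))) :=
    ((hc.comp (D.hφ.smooth_map t).continuous).tendsto a).comp hlim
  have h3 : Tendsto (fun n => 1 / (((ψ n : ℕ) : ℝ) + 1)) atTop (𝓝 0) :=
    tendsto_one_div_add_atTop_nhds_zero_nat.comp hψ.tendsto_atTop
  have h4 : δ (D.φ t a) ≤ 0 := le_of_tendsto_of_tendsto' h2 h3 fun n => (hqN (ψ n) t ht).le
  exact htN ((h0 _).1 (le_antisymm h4 (hpos _)))

variable {D}

theorem exists_fld (Λ : D.Leaf) : Nonempty (Fld Λ) := by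
  obtain ⟨θ, hθc, hθu, hθN⟩ := Λ.exists_angle
  obtain ⟨δ, hδc, hδ0, hδpos, T₀, hT₀, ε, hε, hwall⟩ := D.exists_wall_fun
  -- a bound for the height
  obtain ⟨R₀, hR₀⟩ := (D.cL.image D.h_smooth.continuous).isBounded.exists_norm_le
  have hR₀' : ∀ z ∈ D.L, |D.h z| ≤ R₀ := fun z hz => hR₀ _ ⟨z, hz, rfl⟩
  set R : ℝ := R₀ + 1 with hR
  set B : Set (E × ℝ) := {x | R ≤ |x.2|} ∪ {x | x.1 ∈ D.Q ∧ ε ≤ δ x.1} with hB
  have hBc : IsClosed B := by
    refine IsClosed.union (isClosed_le continuous_const (continuous_abs.comp continuous_snd)) ?_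
    exact (D.hQ.isClosed.preimage continuous_fst).inter
      (isClosed_le continuous_const (hδc.comp continuous_fst))
  set t : E × ℝ → Set ℝ := fun x => {y | (∀ z ∈ D.L, (z.1, D.h z) = x → |y - θ z| < Real.pi / 2) ∧
    (x ∈ B → y = 0)} with ht
  have hconv : ∀ x, Convex ℝ (t x) := by
    intro x
    have h1 : t x = (⋂ z ∈ {z : E × E | z ∈ D.L ∧ (z.1, D.h z) = x},
        Metric.ball (θ z) (Real.pi / 2)) ∩ {y | x ∈ B → y = 0} := by
      ext y
      simp only [ht, mem_ofPred_eq, mem_inter_iff, mem_iInter, Metric.mem_ball, Real.dist_eq,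
        and_imp]
    rw [h1]
    refine Convex.inter (convex_iInter₂ fun z _ => convex_ball _ _) ?_
    by_cases hx : x ∈ B
    · have : {y : ℝ | x ∈ B → y = 0} = {0} := by
        ext y
        simp [hx]
      rw [this]
      exact convex_singleton _
    · have : {y : ℝ | x ∈ B → y = 0} = univ := by
        ext y
        simp [hx]
      rw [this]
      exact convex_univ
  have hpi : 0 < Real.pi / 2 := by positivity
  have hloc : ∀ x : E × ℝ, ∃ c : ℝ, ∀ᶠ y in 𝓝 x, c ∈ t y := by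
    intro x
    by_cases hx : x ∈ B
    · refine ⟨0, ?_⟩
      rcases hx with hx | hx
      · have h1 : ∀ᶠ y : E × ℝ in 𝓝 x, R₀ < |y.2| := by
          have h2 : ContinuousAt (fun y : E × ℝ => |y.2|) x :=
            (continuous_abs.comp continuous_snd).continuousAt
          refine h2.eventually (lt_mem_nhds ?_)
          have hx' : R ≤ |x.2| := hx
          linarith
        filter_upwards [h1] with y hy
        refine ⟨fun z hz hzy => ?_, fun _ => rfl⟩
        exfalso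
        have h2 := hR₀' z hz
        have h3 : D.h z = y.2 := congrArg Prod.snd hzy
        rw [h3] at h2
        linarith
      · have h1 : ∀ᶠ y : E × ℝ in 𝓝 x, 0 < δ y.1 := by
          have h2 : ContinuousAt (fun y : E × ℝ => δ y.1) x := (hδc.comp continuous_fst).continuousAt
          exact h2.eventually (lt_mem_nhds (hε.trans_le hx.2))
        filter_upwards [h1] with y hy
        refine ⟨fun z hz hzy => ?_, fun _ => rfl⟩
        rw [zero_sub, abs_neg]
        refine hθN z hz fun hN => ?_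
        have h3 : z.1 = y.1 := congrArg Prod.fst hzy
        rw [← h3, (hδ0 _).2 hN] at hy
        exact lt_irrefl _ hy
    · have hxB : ∀ᶠ y in 𝓝 x, y ∉ B := hBc.isOpen_compl.mem_nhds hx
      set Ψ : ℝ × (E × E) → E × ℝ := fun w => (w.2.1, D.h w.2) with hΨ
      have hΨc : Continuous Ψ := (continuous_fst.comp continuous_snd).prodMk
        (D.h_smooth.continuous.comp continuous_snd)
      by_cases hxS : ∃ z₀ ∈ D.L, (z₀.1, D.h z₀) = x
      · obtain ⟨z₀, hz₀, hz₀x⟩ := hxS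
        refine ⟨θ z₀, ?_⟩
        have hN : {w : ℝ × (E × E) | w.2 ∈ D.L → |θ z₀ - θ w.2| < Real.pi / 2} ∈ 𝓝 ((0 : ℝ), z₀) := by
          have h1 : ∀ᶠ z in 𝓝 z₀, z ∈ D.L → |θ z₀ - θ z| < Real.pi / 2 := by
            have h2 := Metric.continuousWithinAt_iff'.1 (hθc z₀ hz₀) (Real.pi / 2) hpi
            rw [eventually_nhdsWithin_iff] at h2
            filter_upwards [h2] with z hz hzL
            have := hz hzL
            rwa [Real.dist_eq, abs_sub_comm] at this
          exact (continuous_snd.tendsto ((0 : ℝ), z₀)).eventually h1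
        have h1 := near_of_inj D.cL hΨc (fun s z hz z' hz' h => D.h_inj hz hz'
          (Prod.ext_iff.1 h).1 (Prod.ext_iff.1 h).2) hz₀ hN
        have h2 : Ψ (0, z₀) = x := hz₀x
        rw [h2] at h1
        have h3 : Tendsto (fun y : E × ℝ => ((0 : ℝ), y)) (𝓝 x) (𝓝 ((0 : ℝ), x)) :=
          (continuous_const.prodMk continuous_id).tendsto x
        filter_upwards [h3.eventually h1, hxB] with y hy hyB
        refine ⟨fun z hz hzy => hy z hz hzy hz, fun h => absurd h hyB⟩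
      · refine ⟨0, ?_⟩
        have h1 := isClosed_family (P := ℝ) D.cL hΨc
        have h2 : IsClosed {y : E × ℝ | ∃ z ∈ D.L, (z.1, D.h z) = y} := by
          have h3 : Continuous fun y : E × ℝ => ((0 : ℝ), y) := by fun_prop
          exact h1.preimage h3
        filter_upwards [h2.isOpen_compl.mem_nhds hxS, hxB] with y hy hyB
        exact ⟨fun z hz hzy => absurd ⟨z, hz, hzy⟩ hy, fun h => absurd h hyB⟩
  obtain ⟨g, hg⟩ := exists_contMDiffMap_forall_mem_convex_of_local_const (M := E × ℝ)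
    (I := 𝓘(ℝ, E × ℝ)) (n := (⊤ : ℕ∞)) hconv hloc
  refine ⟨⟨g, g.contMDiff.contDiff, R, fun z hz => ?_, fun x hx => ?_, T₀, hT₀, fun q hq => ?_,
    fun z hz => ?_⟩⟩
  · have := hR₀' z hz
    linarith
  · exact (hg x).2 (Or.inl hx)
  · obtain ⟨s, hs, hsε⟩ := hwall q hq
    exact ⟨s, hs, fun y => (hg (D.φ s q, y)).2 (Or.inr ⟨D.φ_mem hq s, hsε⟩)⟩
  · have h1 := (hg (z.1, D.h z)).1 z hz rfl
    rw [hθu z hz]
    simp only
    have h2 : Real.cos (θ z) * Real.cos (g (z.1, D.h z)) +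
        Real.sin (θ z) * Real.sin (g (z.1, D.h z)) = Real.cos (θ z - g (z.1, D.h z)) := by
      rw [Real.cos_sub]
    rw [h2]
    have h3 := abs_lt.1 h1
    exact Real.cos_pos_of_mem_Ioo ⟨by linarith, by linarith⟩

end Setup

end Vale.Agent.P220.R2.H57
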