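import Vale.Agent.P220.R2.H57.Ret

/-!
A compact submanifold is a smooth neighbourhood retract.
-/

open Set Filter Topology
open scoped ContDiff Manifold

set_option linter.unusedSectionVars false

namespace Vale.Agent.P220.R2.H57

variable {F : Type} [NormedAddCommGroup F] [NormedSpace ℝ F] [FiniteDimensional ℝ F]

theorem exists_projection (W : Submodule ℝ F) :
    ∃ P : F →L[ℝ] F, (∀ x, P x ∈ W) ∧ ∀ x ∈ W, P x = x := by
  obtain ⟨B, hB⟩ := W.subtype.exists_leftInverse_of_injective (LinearMap.ker_eq_bot.2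
    (Submodule.injective_subtype W))
  refine ⟨LinearMap.toContinuousLinearMap (W.subtype ∘ₗ B), fun x => ?_, fun x hx => ?_⟩
  · simp
  · have := congrArg (fun C => C ⟨x, hx⟩) hB
    simp only [LinearMap.comp_apply, LinearMap.id_apply, Submodule.subtype_apply] at this
    simp [this]

theorem contDiff_smul_of_tsupport {χ : F → ℝ} (hχ : ContDiff ℝ ∞ χ) {O : Set F} (hO : IsOpen O)
    (hsub : tsupport χ ⊆ O) {k : F → F} (hk : ContDiffOn ℝ ∞ k O) :
    ContDiff ℝ ∞ fun y => χ y • k y := by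
  rw [contDiff_iff_contDiffAt]
  intro y
  by_cases hy : y ∈ O
  · exact hχ.contDiffAt.smul (hk.contDiffAt (hO.mem_nhds hy))
  · have h1 : y ∉ tsupport χ := fun h => hy (hsub h)
    have h2 : (fun y => χ y • k y) =ᶠ[𝓝 y] fun _ => 0 := by
      filter_upwards [(isClosed_tsupport χ).isOpen_compl.mem_nhds h1] with z hz
      rw [image_eq_zero_of_notMem_tsupport hz, zero_smul]
    exact contDiffAt_const.congr_of_eventuallyEq h2

theorem exists_local_ret {n : ℕ} {S : Set F} (h : IsSubmanifold n S) {x : F} (hx : x ∈ S) :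
    ∃ (V : Set F) (r : F → F), IsOpen V ∧ x ∈ V ∧ ContDiff ℝ ∞ r ∧ (∀ y ∈ S, r y = y) ∧
      ∀ y ∈ V, r y ∈ S := by
  obtain ⟨Φ, W, hxs, hΦ, hΦs, -, hS⟩ := h x hx
  obtain ⟨P, hPW, hPf⟩ := exists_projection W
  set O : Set F := {y | y ∈ Φ.source ∧ P (Φ y) ∈ Φ.target} with hO
  have hOo : IsOpen O := by
    have : ContinuousOn (fun y => P (Φ y)) Φ.source := P.continuous.comp_continuousOn Φ.continuousOn
    exact this.isOpen_inter_preimage Φ.open_source Φ.open_target
  have hxO : x ∈ O := ⟨hxs, by rw [hPf _ ((hS x hxs).1 hx)]; exact Φ.map_source hxs⟩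
  set k : F → F := fun y => Φ.symm (P (Φ y)) with hk
  have hks : ContDiffOn ℝ ∞ k O :=
    hΦs.comp (P.contDiff.comp_contDiffOn (hΦ.mono fun y hy => hy.1)) (fun y hy => hy.2)
  have hkS : ∀ y ∈ O, k y ∈ S := by
    intro y hy
    rw [hS _ (Φ.map_target hy.2), Φ.right_inv hy.2]
    exact hPW _
  have hkf : ∀ y ∈ O, y ∈ S → k y = y := by
    intro y hy hyS
    simp only [hk]
    rw [hPf _ ((hS y hy.1).1 hyS), Φ.left_inv hy.1]
  obtain ⟨δ, hδ, hball⟩ := Metric.isOpen_iff.1 hOo x hxO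
  let χ : ContDiffBump x := ⟨δ / 4, δ / 2, by positivity, by linarith⟩
  have hsub : tsupport χ ⊆ O := by
    rw [χ.tsupport_eq]
    refine (Metric.closedBall_subset_ball ?_).trans hball
    change δ / 2 < δ
    linarith
  refine ⟨Metric.ball x (δ / 4), fun y => y + χ y • (k y - y), Metric.isOpen_ball,
    Metric.mem_ball_self (by positivity), ?_, ?_, ?_⟩
  · exact contDiff_id.add (contDiff_smul_of_tsupport χ.contDiff hOo hsub
      (hks.sub contDiffOn_id))
  · intro y hy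
    beta_reduce
    by_cases hyO : y ∈ O
    · rw [hkf y hyO hy, sub_self, smul_zero, add_zero]
    · rw [image_eq_zero_of_notMem_tsupport (fun h => hyO (hsub h)), zero_smul, add_zero]
  · intro y hy
    have h1 : χ y = 1 := χ.one_of_mem_closedBall (Metric.ball_subset_closedBall hy)
    have h2 : y ∈ O := hball (Metric.ball_subset_ball (by linarith) hy)
    beta_reduce
    rw [h1, one_smul]
    simpa using hkS y h2

theorem finrank_Tn {n : ℕ} {S U : Set F} {r : F → F} (h : IsSubmanifold n S) (hr : IsRet S U r)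
    {x : F} (hx : x ∈ S) : Module.finrank ℝ (Tn r x) = n := by
  obtain ⟨Φ, W, hxs, hΦ, hΦs, hW, hS⟩ := h x hx
  obtain ⟨P, hPW, hPf⟩ := exists_projection W
  have hd : HasFDerivAt Φ (fderiv ℝ Φ x) x :=
    ((hΦ.contDiffAt (Φ.open_source.mem_nhds hxs)).differentiableAt (by simp)).hasFDerivAt
  have hxt : Φ x ∈ Φ.target := Φ.map_source hxs
  have hds : HasFDerivAt Φ.symm (fderiv ℝ Φ.symm (Φ x)) (Φ x) :=
    ((hΦs.contDiffAt (Φ.open_target.mem_nhds hxt)).differentiableAt (by simp)).hasFDerivAt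
  have hcomp : ∀ v, fderiv ℝ Φ.symm (Φ x) (fderiv ℝ Φ x v) = v := by
    intro v
    have h1 := hds.comp x hd
    have h2 : (Φ.symm ∘ Φ) =ᶠ[𝓝 x] id := by
      filter_upwards [Φ.open_source.mem_nhds hxs] with y hy
      exact Φ.left_inv hy
    exact congrArg (fun C => C v) (h1.unique ((hasFDerivAt_id x).congr_of_eventuallyEq h2))
  have hinj : Function.Injective (fderiv ℝ Φ x : F →ₗ[ℝ] F) := by
    intro a b hab
    have h1 : fderiv ℝ Φ x a = fderiv ℝ Φ x b := hab
    rw [← hcomp a, ← hcomp b, h1]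
  set e : F ≃ₗ[ℝ] F := LinearEquiv.ofInjectiveEndo (fderiv ℝ Φ x : F →ₗ[ℝ] F) hinj with he
  have hea : ∀ v, e v = fderiv ℝ Φ x v := fun v => rfl
  have hTn : Tn r x = W.comap (e : F →ₗ[ℝ] F) := by
    ext v
    rw [Submodule.mem_comap]
    change v ∈ Tn r x ↔ e v ∈ W
    rw [hea]
    constructor
    · intro hv
      rw [← hr.mem_Tan hx] at hv
      obtain ⟨c, hc, hcS, h0, hv⟩ := hv
      have h1 : HasDerivAt c v 0 := by
        rw [← hv]
        exact (hc.differentiable (by simp) 0).hasDerivAt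
      have hd0 : HasFDerivAt Φ (fderiv ℝ Φ x) (c 0) := by rw [h0]; exact hd
      have h2 : HasDerivAt (fun t => Φ (c t)) (fderiv ℝ Φ x v) 0 := hd0.comp_hasDerivAt 0 h1
      have h3 : HasDerivAt (fun t => P (Φ (c t))) (P (fderiv ℝ Φ x v)) 0 :=
        P.hasFDerivAt.comp_hasDerivAt 0 h2
      have h4 : (fun t => P (Φ (c t))) =ᶠ[𝓝 0] fun t => Φ (c t) := by
        have h5 : ∀ᶠ t in 𝓝 (0 : ℝ), c t ∈ Φ.source := by
          refine hc.continuous.continuousAt.eventually_mem ?_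
          rw [h0]
          exact Φ.open_source.mem_nhds hxs
        filter_upwards [h5] with t ht
        exact hPf _ ((hS _ ht).1 (hcS t))
      have h6 := h3.unique (h2.congr_of_eventuallyEq h4)
      rw [← h6]
      exact hPW _
    · intro hv
      set k : ℝ → F := fun t => Φ.symm (Φ x + t • fderiv ℝ Φ x v) with hk
      have hk0 : k 0 = x := by simp [hk, Φ.left_inv hxs]
      have h1 : HasDerivAt (fun t : ℝ => Φ x + t • fderiv ℝ Φ x v) (fderiv ℝ Φ x v) 0 := by
        simpa using ((hasDerivAt_id (0 : ℝ)).smul_const (fderiv ℝ Φ x v)).const_add (Φ x)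
      have hds0 : HasFDerivAt Φ.symm (fderiv ℝ Φ.symm (Φ x)) (Φ x + (0 : ℝ) • fderiv ℝ Φ x v) := by
        simpa using hds
      have h2 : HasDerivAt k v 0 := by
        have := hds0.comp_hasDerivAt (0 : ℝ) h1
        rw [hcomp] at this
        exact this
      have h3 : ∀ᶠ t in 𝓝 (0 : ℝ), k t ∈ S := by
        have h4 : ∀ᶠ t in 𝓝 (0 : ℝ), Φ x + t • fderiv ℝ Φ x v ∈ Φ.target := by
          refine h1.continuousAt.eventually_mem ?_
          simpa using Φ.open_target.mem_nhds hxt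
        filter_upwards [h4] with t ht
        rw [hS _ (Φ.map_target ht), Φ.right_inv ht]
        exact W.add_mem ((hS x hxs).1 hx) (W.smul_mem _ hv)
      have := hr.curve_tangent h3 h2
      rwa [hk0] at this
  rw [hTn, ← hW, Submodule.comap_equiv_eq_map_symm]
  exact LinearEquiv.finrank_map_eq e.symm W

theorem exists_ret {n : ℕ} {S : Set F} (h : IsSubmanifold n S) (hc : IsCompact S) :
    ∃ (U : Set F) (r : F → F), IsRet S U r ∧ ∀ x ∈ S, Module.finrank ℝ (Tn r x) = n := by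
  have key : ∃ (V : Set F) (r : F → F), IsOpen V ∧ S ⊆ V ∧ ContDiff ℝ ∞ r ∧ (∀ y ∈ S, r y = y) ∧
      ∀ y ∈ V, r y ∈ S := by
    have key2 : ∃ (V : Set F) (r : F → F), IsOpen V ∧ S ∩ S ⊆ V ∧ ContDiff ℝ ∞ r ∧
        (∀ y ∈ S, r y = y) ∧ ∀ y ∈ V, r y ∈ S := by
      refine hc.induction_on (p := fun K => ∃ (V : Set F) (r : F → F), IsOpen V ∧ K ∩ S ⊆ V ∧
        ContDiff ℝ ∞ r ∧ (∀ y ∈ S, r y = y) ∧ ∀ y ∈ V, r y ∈ S) ?_ ?_ ?_ ?_
      · exact ⟨∅, id, isOpen_empty, by simp, contDiff_id, fun y _ => rfl, fun y hy => hy.elim⟩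
      · rintro s t hst ⟨V, r, h1, h2, h3⟩
        exact ⟨V, r, h1, (inter_subset_inter_left _ hst).trans h2, h3⟩
      · rintro s t ⟨V₁, r₁, h1, h2, h3, h4, h5⟩ ⟨V₂, r₂, h1', h2', h3', h4', h5'⟩
        refine ⟨V₁ ∪ r₁ ⁻¹' V₂, fun y => r₂ (r₁ y), ?_, ?_, h3'.comp h3, ?_, ?_⟩
        · exact h1.union (h1'.preimage h3.continuous)
        · rintro y ⟨hy | hy, hyS⟩
          · exact Or.inl (h2 ⟨hy, hyS⟩)
          · refine Or.inr ?_
            rw [mem_preimage, h4 y hyS]
            exact h2' ⟨hy, hyS⟩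
        · intro y hy
          beta_reduce
          rw [h4 y hy, h4' y hy]
        · rintro y (hy | hy)
          · beta_reduce
            rw [h4' _ (h5 y hy)]
            exact h5 y hy
          · exact h5' _ hy
      · intro x hx
        obtain ⟨V, r, h1, h2, h3⟩ := exists_local_ret h hx
        exact ⟨V, mem_nhdsWithin_of_mem_nhds (h1.mem_nhds h2), V, r, h1, inter_subset_left, h3⟩
    obtain ⟨V, r, h1, h2, h3⟩ := key2
    exact ⟨V, r, h1, by simpa using h2, h3⟩
  obtain ⟨V, r, h1, h2, h3, h4, h5⟩ := key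
  have hr : IsRet S V r := ⟨hc.isClosed, h1, h2, h3, h5, h4⟩
  exact ⟨V, r, hr, fun x hx => finrank_Tn h hr hx⟩

end Vale.Agent.P220.R2.H57
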