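import Vale.Agent.P220.R2.H57.Line

/-!
The line field is smooth.
-/

open Set Filter Topology
open scoped ContDiff Manifold

set_option linter.unusedSectionVars false

namespace Vale.Agent.P220.R2.H57

variable {E : Type} [NormedAddCommGroup E] [InnerProductSpace ℝ E] [FiniteDimensional ℝ E]

/-- the scalar product of the plane as a functional -/
def dotL (u : ℝ × ℝ) : (ℝ × ℝ) →L[ℝ] ℝ :=
  u.1 • ContinuousLinearMap.fst ℝ ℝ ℝ + u.2 • ContinuousLinearMap.snd ℝ ℝ ℝ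

theorem dotL_apply (u w : ℝ × ℝ) : dotL u w = u.1 * w.1 + u.2 * w.2 := by
  simp [dotL]

namespace Setup

variable (D : Setup E)

theorem dρ_smooth (v : E × E) : ContDiff ℝ ∞ fun z => fderiv ℝ D.ρ z v :=
  (D.hL.smooth.fderiv_right (m := ∞) (by simp)).clm_apply contDiff_const

theorem dh_smooth (v : E × E) : ContDiff ℝ ∞ fun z => fderiv ℝ D.h z v :=
  (D.h_smooth.fderiv_right (m := ∞) (by simp)).clm_apply contDiff_const

/-- the linear system for the leafwise vectors -/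
noncomputable def sys (u₀ : ℝ × ℝ) (z : E × E) : ((E × E) × (ℝ × ℝ)) →L[ℝ] (E × E) × (E × (ℝ × ℝ)) :=
  (ContinuousLinearMap.fst ℝ _ _ -
    (fderiv ℝ D.ρ z).comp (ContinuousLinearMap.fst ℝ (E × E) (ℝ × ℝ))).prod
  ((((ContinuousLinearMap.fst ℝ E E).comp (ContinuousLinearMap.fst ℝ (E × E) (ℝ × ℝ))) -
    ((ContinuousLinearMap.fst ℝ ℝ ℝ).comp
      (ContinuousLinearMap.snd ℝ (E × E) (ℝ × ℝ))).smulRight (D.X z.1)).prod
  (((fderiv ℝ D.h z).comp (ContinuousLinearMap.fst ℝ (E × E) (ℝ × ℝ)) -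
    (ContinuousLinearMap.snd ℝ ℝ ℝ).comp (ContinuousLinearMap.snd ℝ (E × E) (ℝ × ℝ))).prod
    ((dotL u₀).comp (ContinuousLinearMap.snd ℝ (E × E) (ℝ × ℝ)))))

theorem sys_apply (u₀ : ℝ × ℝ) (z v : E × E) (u : ℝ × ℝ) : D.sys u₀ z (v, u) =
    (v - fderiv ℝ D.ρ z v, (v.1 - u.1 • D.X z.1, (fderiv ℝ D.h z v - u.2, dotL u₀ u))) := rfl

theorem sys_smooth (u₀ : ℝ × ℝ) : ContDiff ℝ ∞ (D.sys u₀) := by
  rw [contDiff_clm_apply_iff]
  rintro ⟨v, u⟩
  simp only [sys_apply]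
  exact (contDiff_const.sub (D.dρ_smooth v)).prodMk
    ((contDiff_const.sub (contDiff_const.smul (D.hX.comp contDiff_fst))).prodMk
      (((D.dh_smooth v).sub contDiff_const).prodMk contDiff_const))

theorem local_section {z₀ : E × E} (hz₀ : z₀ ∈ D.L) {u₀ : ℝ × ℝ} {v₀ : E × E}
    (h₀ : D.Lf z₀ u₀ v₀) (hu₀ : u₀.1 ^ 2 + u₀.2 ^ 2 = 1) :
    ∃ O ∈ 𝓝 z₀, ∃ (u : E × E → ℝ × ℝ) (v : E × E → E × E), ContDiffOn ℝ ∞ u O ∧
      ContDiffOn ℝ ∞ v O ∧ u z₀ = u₀ ∧ v z₀ = v₀ ∧ (∀ z ∈ O, 0 < (u z).1 ^ 2 + (u z).2 ^ 2) ∧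
      ∀ z ∈ O, z ∈ D.L → D.Lf z (u z) (v z) := by
  have hker : ∀ z ∈ D.L, ∀ x, D.sys u₀ z x = 0 → D.Lf z x.2 x.1 ∧ dotL u₀ x.2 = 0 := by
    rintro z hz ⟨v, u⟩ hx
    rw [sys_apply] at hx
    simp only [Prod.mk_eq_zero] at hx
    obtain ⟨h1, h2, h3, h4⟩ := hx
    exact ⟨⟨(sub_eq_zero.1 h1).symm, sub_eq_zero.1 h2, sub_eq_zero.1 h3⟩, h4⟩
  have hinj : ∀ x, D.sys u₀ z₀ x = 0 → x = 0 := by
    intro x hx
    obtain ⟨h1, h2⟩ := hker z₀ hz₀ x hx
    obtain ⟨c, hc, hc'⟩ := h₀.prop hz₀ h1 hu₀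
    rw [hc, dotL_apply] at h2
    simp only [Prod.smul_fst, Prod.smul_snd, smul_eq_mul] at h2
    have h3 : c = 0 := by
      have : c * (u₀.1 ^ 2 + u₀.2 ^ 2) = 0 := by linear_combination h2
      rwa [hu₀, mul_one] at this
    rw [h3, zero_smul] at hc hc'
    exact Prod.ext hc' hc
  obtain ⟨O', hO', -, hinjO, f, hf, hfA⟩ := linSolve_local isOpen_univ
    ((D.sys_smooth u₀).contDiffOn) (contDiffOn_const (c := ((0 : E × E), ((0 : E), ((0 : ℝ), (1 : ℝ)))))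
    (s := univ)) (mem_univ z₀) hinj
  -- the value at the base point
  have hval : ∀ z ∈ D.L, ∀ u v, D.Lf z u v → dotL u₀ u = 1 →
      D.sys u₀ z (v, u) = ((0 : E × E), ((0 : E), ((0 : ℝ), (1 : ℝ)))) := by
    intro z hz u v h h'
    rw [sys_apply, h', h.2.1, h.2.2, (h.1 : fderiv ℝ D.ρ z v = v)]
    simp
  have hf₀ : f z₀ = (v₀, u₀) := hfA z₀ (mem_of_mem_nhds hO') _
    (hval z₀ hz₀ u₀ v₀ h₀ (by rw [dotL_apply]; linear_combination hu₀))
  set s : E × E → ℝ := fun z => (f z).2.1 ^ 2 + (f z).2.2 ^ 2 with hs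
  have hO'' : interior O' ∈ 𝓝 z₀ := interior_mem_nhds.2 hO'
  have hsc : ContinuousAt s z₀ := by
    have : ContinuousAt f z₀ := (hf.continuousOn).continuousAt hO'
    have h2 : ContinuousAt (fun z => (f z).2) z₀ := continuousAt_snd.comp this
    exact ((continuousAt_fst.comp h2).pow 2).add ((continuousAt_snd.comp h2).pow 2)
  have hs₀ : s z₀ = 1 := by simp only [hs, hf₀, hu₀]
  have hspos : ∀ᶠ z in 𝓝 z₀, 0 < s z := hsc.eventually (lt_mem_nhds (by rw [hs₀]; exact one_pos))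
  refine ⟨O' ∩ {z | 0 < s z}, inter_mem hO' hspos, fun z => (f z).2, fun z => (f z).1,
    (contDiff_snd.comp_contDiffOn hf).mono inter_subset_left,
    (contDiff_fst.comp_contDiffOn hf).mono inter_subset_left, by beta_reduce; rw [hf₀],
    by beta_reduce; rw [hf₀], fun z hz => hz.2, ?_⟩
  rintro z ⟨hzO, -⟩ hz
  obtain ⟨u, v, huv, hu1⟩ := D.Lf_exists hz
  have hne : dotL u₀ u ≠ 0 := by
    intro h0
    have h1 : D.sys u₀ z (v, u) = 0 := by
      rw [sys_apply, h0, huv.2.1, huv.2.2, (huv.1 : fderiv ℝ D.ρ z v = v)]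
      simp
    have h2 := hinjO z hzO _ h1
    have h3 : u = 0 := congrArg Prod.snd h2
    rw [h3] at hu1
    simp at hu1
  have h4 := huv.smul (dotL u₀ u)⁻¹
  have h5 := hfA z hzO _ (hval z hz _ _ h4 (by rw [map_smul, smul_eq_mul, inv_mul_cancel₀ hne]))
  simp only [h5]
  exact h4

theorem exists_VP : ∃ (V : E × E → (ℝ × ℝ) →L[ℝ] (E × E)) (P : E × E → (ℝ × ℝ) →L[ℝ] (ℝ × ℝ)),
    ContDiff ℝ ∞ V ∧ ContDiff ℝ ∞ P ∧ ∀ z ∈ D.L, (∀ w, D.Lf z (P z w) (V z w)) ∧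
      ∀ u v, D.Lf z u v → P z u = u := by
  classical
  have hex : ∀ z : E × E, ∃ x : (ℝ × ℝ) × (E × E), z ∈ D.L →
      D.Lf z x.1 x.2 ∧ x.1.1 ^ 2 + x.1.2 ^ 2 = 1 := by
    intro z
    by_cases hz : z ∈ D.L
    · obtain ⟨u, v, h⟩ := D.Lf_exists hz
      exact ⟨(u, v), fun _ => h⟩
    · exact ⟨0, fun h => absurd h hz⟩
  choose x hx using hex
  set g : E × E → (ℝ × ℝ) →L[ℝ] (E × E) × (ℝ × ℝ) :=
    fun z => (dotL (x z).1).smulRight ((x z).2, (x z).1) with hg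
  obtain ⟨G, hG, hGg⟩ := glue D.hL.isClosed g (by
    intro z₀ hz₀
    obtain ⟨h1, h2⟩ := hx z₀ hz₀
    obtain ⟨O, hO, u, v, hu, hv, -, -, hpos, hLf⟩ := D.local_section hz₀ h1 h2
    refine ⟨O, hO, fun z => ((u z).1 ^ 2 + (u z).2 ^ 2)⁻¹ • (dotL (u z)).smulRight (v z, u z), ?_, ?_⟩
    · rw [contDiffOn_clm_apply]
      intro w
      simp only [FunLike.coe_smul, Pi.smul_apply, ContinuousLinearMap.smulRight_apply,
        dotL_apply]
      have h3 : ContDiffOn ℝ ∞ (fun z => ((u z).1 ^ 2 + (u z).2 ^ 2)⁻¹) O :=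
        ContDiffOn.inv (((contDiff_fst.comp_contDiffOn hu).pow 2).add
          ((contDiff_snd.comp_contDiffOn hu).pow 2)) (fun z hz => (hpos z hz).ne')
      exact h3.smul ((((contDiff_fst.comp_contDiffOn hu).mul contDiffOn_const).add
        ((contDiff_snd.comp_contDiffOn hu).mul contDiffOn_const)).smul (hv.prodMk hu))
    · intro z hzO hz
      obtain ⟨h3, h4⟩ := hx z hz
      obtain ⟨c, hc, hc'⟩ := h3.prop hz (hLf z hzO hz) h4
      have hpos' := hpos z hzO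
      refine ContinuousLinearMap.ext fun w => ?_
      simp only [FunLike.coe_smul, Pi.smul_apply, ContinuousLinearMap.smulRight_apply,
        dotL_apply, hg]
      rw [hc] at hpos'
      rw [hc, hc']
      simp only [Prod.smul_fst, Prod.smul_snd, smul_eq_mul] at hpos' ⊢
      have h5 : (c * (x z).1.1) ^ 2 + (c * (x z).1.2) ^ 2 = c ^ 2 := by
        linear_combination c ^ 2 * h4
      rw [h5] at hpos' ⊢
      have hc0 : c ≠ 0 := fun h => by rw [h] at hpos'; simp at hpos'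
      rw [← Prod.smul_mk, smul_smul, smul_smul]
      congr 1
      field_simp)
  refine ⟨fun z => (ContinuousLinearMap.fst ℝ _ _).comp (G z),
    fun z => (ContinuousLinearMap.snd ℝ _ _).comp (G z), contDiff_const.clm_comp hG,
    contDiff_const.clm_comp hG, fun z hz => ?_⟩
  obtain ⟨h3, h4⟩ := hx z hz
  simp only [ContinuousLinearMap.comp_apply, hGg z hz, hg, ContinuousLinearMap.smulRight_apply,
    ContinuousLinearMap.coe_fst', ContinuousLinearMap.coe_snd', Prod.smul_fst, Prod.smul_snd]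
  refine ⟨fun w => h3.smul _, fun u v huv => ?_⟩
  obtain ⟨c, hc, hc'⟩ := h3.prop hz huv h4
  rw [hc, map_smul, dotL_apply, smul_eq_mul]
  congr 1
  linear_combination c * h4

end Setup

end Vale.Agent.P220.R2.H57
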